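import Vale.Agent.P309.Step

/-!
Finite state chains driven by Gaussian samples.
-/

namespace Vale.Agent.P309

open MeasureTheory ProbabilityTheory Set Filter Metric
open scoped ENNReal RealInnerProductSpace Topology

variable {d : ℕ}

open Classical in
/-- Transition weights over a window of samples. -/
noncomputable def comp {Ω : Type} [Fintype Ω] (κ : ℕ → Ω → Ω → Euc d × ℝ → ℝ≥0∞) :
    (k : ℕ) → ℕ → Ω → Ω → (Fin k → Euc d) × (Fin k → ℝ) → ℝ≥0∞
  | 0, _, ω, ω', _ => if ω = ω' then 1 else 0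
  | k + 1, t, ω, ω', p =>
      ∑ ω'', κ t ω ω'' (p.1 0, p.2 0) * comp κ k (t + 1) ω'' ω' (Fin.tail p.1, Fin.tail p.2)

theorem measurable_comp {Ω : Type} [Fintype Ω] {κ : ℕ → Ω → Ω → Euc d × ℝ → ℝ≥0∞}
    (hκ : ∀ t ω ω', Measurable (κ t ω ω')) (k : ℕ) : ∀ t ω ω', Measurable (comp κ k t ω ω') := by
  induction k with
  | zero => intro t ω ω'; exact measurable_const
  | succ k ih =>
    intro t ω ω'
    refine Finset.measurable_sum _ fun ω'' _ => ((hκ t ω ω'').comp (by fun_prop)).mul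
      ((ih (t + 1) ω'' ω').comp ?_)
    refine Measurable.prodMk (measurable_pi_lambda _ fun i => ?_) (measurable_pi_lambda _ fun i => ?_)
    · exact (measurable_pi_apply _).comp measurable_fst
    · exact (measurable_pi_apply _).comp measurable_snd

theorem comp_sum {Ω : Type} [Fintype Ω] {κ : ℕ → Ω → Ω → Euc d × ℝ → ℝ≥0∞}
    (hκ : ∀ t ω z, ∑ ω', κ t ω ω' z ≤ 1) (k : ℕ) : ∀ t ω p, ∑ ω', comp κ k t ω ω' p ≤ 1 := by
  classical
  induction k with
  | zero => intro t ω p; simp [comp]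
  | succ k ih =>
    intro t ω p
    simp only [comp]
    rw [Finset.sum_comm]
    refine le_trans (Finset.sum_le_sum fun ω'' _ => ?_) (hκ t ω (p.1 0, p.2 0))
    rw [← Finset.mul_sum]
    exact mul_le_of_le_one_right' (ih _ _ _)

theorem chain_comp {Ω : Type} [Fintype Ω] {κ : ℕ → Ω → Ω → Euc d × ℝ → ℝ≥0∞}
    (hκ : ∀ t ω ω', Measurable (κ t ω ω')) {H : ℕ → Ω → Euc d → ℝ≥0∞}
    (hH : ∀ t ω' s, H (t + 1) ω' s =
      ∑ ω, H t ω s * ∫⁻ x, κ t ω ω' (x, ⟪x, s⟫) ∂stdGaussian (Euc d)) (k : ℕ) :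
    ∀ t ω' s, H (t + k) ω' s = ∑ ω, H t ω s * ∫⁻ X, comp κ k t ω ω' (X, ev X s) ∂rows d k := by
  classical
  induction k with
  | zero => intro t ω' s; simp [comp]
  | succ k ih =>
    intro t ω' s
    rw [show t + (k + 1) = t + 1 + k by ring, ih]
    simp_rw [hH, Finset.sum_mul]
    rw [Finset.sum_comm]
    refine Finset.sum_congr rfl fun ω _ => ?_
    simp_rw [mul_assoc]
    rw [← Finset.mul_sum]
    congr 1
    have hm : ∀ {k} t ω ω', Measurable fun X : Fin k → Euc d => comp κ k t ω ω' (X, ev X s) :=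
      fun t ω ω' => (measurable_comp hκ _ t ω ω').comp (measurable_ev.comp measurable_prodMk_left)
    have hk : ∀ ω'', Measurable fun x : Euc d => κ t ω ω'' (x, ⟪x, s⟫) := fun ω'' =>
      (hκ t ω ω'').comp (by fun_prop)
    rw [lintegral_pi_cons _ _ (hm t ω ω')]
    have : ∀ (x : Euc d) (X : Fin k → Euc d), comp κ (k + 1) t ω ω' (Fin.cons x X, ev (Fin.cons x X) s)
        = ∑ ω'', κ t ω ω'' (x, ⟪x, s⟫) * comp κ k (t + 1) ω'' ω' (X, ev X s) := fun x X => rfl
    simp_rw [this]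
    rw [← Finset.sum_congr rfl fun ω'' _ => lintegral_mul_const _ (hk ω''),
      ← lintegral_finset_sum _ fun ω'' _ => (hk ω'').mul_const _]
    refine lintegral_congr fun x => ?_
    rw [lintegral_finset_sum _ fun ω'' _ => (hm _ ω'' ω').const_mul _]
    exact Finset.sum_congr rfl fun ω'' _ => (lintegral_const_mul _ (hm _ ω'' ω')).symm

theorem measurable_ball_measure (π : Measure (Euc d)) [SFinite π] (ε : ℝ) :
    Measurable fun s => π (closedBall s ε) :=
  measurable_measure_prodMk_left (s := {p : Euc d × Euc d | dist p.2 p.1 ≤ ε})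
    (measurableSet_le (by fun_prop) measurable_const)

theorem lintegral_ball_swap (σ π : Measure (Euc d)) [SFinite σ] [SFinite π] (ε : ℝ) :
    ∫⁻ s, π (closedBall s ε) ∂σ = ∫⁻ s, σ (closedBall s ε) ∂π := by
  have hm : MeasurableSet {p : Euc d × Euc d | dist p.2 p.1 ≤ ε} :=
    measurableSet_le (by fun_prop) measurable_const
  have h1 := Measure.prod_apply (μ := σ) (ν := π) hm
  rw [Measure.prod_apply_symm hm] at h1
  refine h1.symm.trans (lintegral_congr fun s => ?_)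
  congr 1
  ext z
  simp [dist_comm]

theorem pot_success {q N : ℕ} (σ π : Measure (Euc d)) [IsProbabilityMeasure σ]
    [IsProbabilityMeasure π]
    (hcap : ∀ z r, 0 < r → σ (closedBall z r) ≤ ENNReal.ofReal (8 * r) ^ (7 * q))
    {F : Euc d → ℝ≥0∞} (hF : Measurable F) {ε : ℝ} (hε : 0 < ε) :
    ∫⁻ s, pot σ q N F s * π (closedBall s ε) ∂σ ≤
      (N + 1) * (2 ^ (25 * q) * ENNReal.ofReal ε ^ (3 * q) * ∫⁻ s, F s ∂σ) := by
  have hm : ∀ t, Measurable fun s => mass σ F t s * π (closedBall s ε) := fun t =>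
    (measurable_mass σ hF t).fun_mul (measurable_ball_measure π ε)
  have key : ∀ t, 2 ^ (4 * q * t) * ∫⁻ s, mass σ F t s * π (closedBall s ε) ∂σ ≤
      2 ^ (25 * q) * ENNReal.ofReal ε ^ (3 * q) * ∫⁻ s, F s ∂σ := by
    intro t
    have h2 : ENNReal.ofReal ((2 : ℝ) ^ t) = 2 ^ t := by
      rw [ENNReal.ofReal_pow (by norm_num)]; simp
    rcases le_total ε (rad t) with h | h
    · have e1 : ∫⁻ s, mass σ F t s * π (closedBall s ε) ∂σ ≤
          ENNReal.ofReal (8 * ε) ^ (7 * q) * ∫⁻ s, F s ∂σ := by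
        calc _ ≤ ∫⁻ s, (∫⁻ s, F s ∂σ) * π (closedBall s ε) ∂σ :=
              lintegral_mono fun s => mul_le_mul_left (setLIntegral_le_lintegral _ _) _
          _ ≤ _ := by
              rw [lintegral_const_mul _ (measurable_ball_measure π ε), lintegral_ball_swap,
                mul_comm]
              refine mul_le_mul_left ((lintegral_mono fun s => hcap s ε hε).trans (by simp)) _
      refine (mul_le_mul_right e1 _).trans ?_
      rw [← mul_assoc]
      refine mul_le_mul_left ?_ _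
      have e2 : (2 : ℝ≥0∞) ^ t * ENNReal.ofReal ε ≤ 2 := by
        rw [← h2, ← ENNReal.ofReal_mul (by positivity)]
        rw [rad, le_div_iff₀ (by positivity)] at h
        calc _ ≤ ENNReal.ofReal 2 := ENNReal.ofReal_le_ofReal (by linarith)
          _ = 2 := by simp
      calc (2 : ℝ≥0∞) ^ (4 * q * t) * ENNReal.ofReal (8 * ε) ^ (7 * q)
          = (2 ^ t * ENNReal.ofReal ε) ^ (4 * q) * (2 ^ (21 * q) * ENNReal.ofReal ε ^ (3 * q)) := by
            rw [ENNReal.ofReal_mul (by norm_num), mul_pow, mul_pow, ← pow_mul,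
              show ENNReal.ofReal 8 = 2 ^ 3 by norm_num, ← pow_mul]
            ring
        _ ≤ 2 ^ (4 * q) * (2 ^ (21 * q) * ENNReal.ofReal ε ^ (3 * q)) :=
            mul_le_mul_left (pow_le_pow_left' e2 _) _
        _ = _ := by ring
    · have e1 : ∫⁻ s, mass σ F t s * π (closedBall s ε) ∂σ ≤
          (2 ^ 4 * (2 ^ t)⁻¹) ^ (7 * q) * ∫⁻ s, F s ∂σ := by
        haveI : SFinite (σ.withDensity F) := inferInstance
        calc _ ≤ ∫⁻ s, (σ.withDensity F) (closedBall s (rad t)) ∂σ := lintegral_mono fun s => by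
              rw [withDensity_apply _ measurableSet_closedBall]
              exact mul_le_of_le_one_right' prob_le_one
          _ ≤ _ := by
              rw [lintegral_ball_swap, ← ofReal_rad]
              refine (lintegral_mono fun s => hcap s _ (rad_pos t)).trans (by simp)
      refine (mul_le_mul_right e1 _).trans ?_
      rw [← mul_assoc]
      refine mul_le_mul_left ?_ _
      have e0 : (2 : ℝ≥0∞) ^ t * (2 ^ t)⁻¹ = 1 := ENNReal.mul_inv_cancel (by simp) (by simp)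
      have e2 : (2 : ℝ≥0∞) * (2 ^ t)⁻¹ ≤ ENNReal.ofReal ε := by
        refine le_trans (le_of_eq ?_) (ENNReal.ofReal_le_ofReal h)
        rw [rad, ENNReal.ofReal_div_of_pos (by positivity), h2, div_eq_mul_inv]
        simp
      calc (2 : ℝ≥0∞) ^ (4 * q * t) * (2 ^ 4 * (2 ^ t)⁻¹) ^ (7 * q)
          = (2 ^ t * (2 ^ t)⁻¹) ^ (4 * q) * (2 ^ (25 * q) * (2 * (2 ^ t)⁻¹) ^ (3 * q)) := by
            rw [mul_pow, mul_pow, mul_pow, ← pow_mul, ← pow_mul]; ring
        _ ≤ _ := by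
            rw [e0, one_pow, one_mul]
            exact mul_le_mul_right (pow_le_pow_left' e2 _) _
  calc _ = ∑ t ∈ Finset.range (N + 1),
          2 ^ (4 * q * t) * ∫⁻ s, mass σ F t s * π (closedBall s ε) ∂σ := by
        simp_rw [pot, Finset.sum_mul, mul_assoc]
        rw [lintegral_finset_sum _ fun t _ => (hm t).const_mul _]
        exact Finset.sum_congr rfl fun t _ => lintegral_const_mul _ (hm t)
    _ ≤ _ := (Finset.sum_le_sum fun t _ => key t).trans (by simp)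

/-- A finite chain driven by Gaussian samples. -/
structure IsChain {Ω : Type} [Fintype Ω] (κ : ℕ → Ω → Ω → Euc d × ℝ → ℝ≥0∞)
    (H : ℕ → Ω → Euc d → ℝ≥0∞) : Prop where
  meas : ∀ t ω ω', Measurable (κ t ω ω')
  sum_le : ∀ t ω z, ∑ ω', κ t ω ω' z ≤ 1
  init : ∃ p : Ω → ℝ≥0∞, ∑ ω, p ω ≤ 1 ∧ ∀ ω s, H 0 ω s = p ω
  succ : ∀ t ω' s, H (t + 1) ω' s =
      ∑ ω, H t ω s * ∫⁻ x, κ t ω ω' (x, ⟪x, s⟫) ∂stdGaussian (Euc d)

theorem IsChain.measurable {Ω : Type} [Fintype Ω] {κ : ℕ → Ω → Ω → Euc d × ℝ → ℝ≥0∞}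
    {H : ℕ → Ω → Euc d → ℝ≥0∞} (h : IsChain κ H) (t : ℕ) : ∀ ω, Measurable (H t ω) := by
  induction t with
  | zero =>
    obtain ⟨p, -, hp⟩ := h.init
    intro ω
    rw [show H 0 ω = _ from funext (hp ω)]
    exact measurable_const
  | succ t ih =>
    intro ω'
    rw [show H (t + 1) ω' = _ from funext (h.succ t ω')]
    refine Finset.measurable_sum _ fun ω _ => (ih ω).mul ?_
    exact Measurable.lintegral_prod_right'
      (f := fun p : Euc d × Euc d => κ t ω ω' (p.2, ⟪p.2, p.1⟫)) ((h.meas t ω ω').comp (by fun_prop))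

theorem IsChain.sum_H {Ω : Type} [Fintype Ω] {κ : ℕ → Ω → Ω → Euc d × ℝ → ℝ≥0∞}
    {H : ℕ → Ω → Euc d → ℝ≥0∞} (h : IsChain κ H) (t : ℕ) (s : Euc d) : ∑ ω, H t ω s ≤ 1 := by
  induction t with
  | zero =>
    obtain ⟨p, hp1, hp⟩ := h.init
    simpa [hp] using hp1
  | succ t ih =>
    simp_rw [h.succ]
    rw [Finset.sum_comm]
    refine le_trans (Finset.sum_le_sum fun ω _ => ?_) ih
    rw [← Finset.mul_sum, ← lintegral_finset_sum _ fun ω' _ => by
      exact (h.meas t ω ω').comp (by fun_prop)]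
    exact mul_le_of_le_one_right' ((lintegral_mono fun x => h.sum_le t ω _).trans (by simp))

theorem IsChain.excess {Ω : Type} [Fintype Ω] {κ : ℕ → Ω → Ω → Euc d × ℝ → ℝ≥0∞}
    {H : ℕ → Ω → Euc d → ℝ≥0∞} (h : IsChain κ H) {q a y e N : ℕ} (hq : 2 ≤ q)
    (hN : e + 28 * q ≤ 3 * q * N)
    (σ : Measure (Euc d)) [IsProbabilityMeasure σ] (hsupp : σ (closedBall 0 1)ᶜ = 0)
    (hcap : ∀ z r, 0 < r → σ (closedBall z r) ≤ ENNReal.ofReal (8 * r) ^ (7 * q))
    (hΩ : (Fintype.card Ω : ℝ≥0∞) ≤ 2 ^ (a * q * q)) (J : ℕ) :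
    ∑ ω, ∫⁻ s, (H (J * q) ω s - ((N + 1) * (2 ^ ((a + 3 * y + 12) * q)) ^ 2) ^ J *
        pot σ q N (H (J * q) ω) s) ∂σ
      ≤ J * ((N + 1) * (9 ^ d * (3 * (2 ^ (y * q))⁻¹)) + Fintype.card Ω * (2 ^ e)⁻¹) := by
  induction J with
  | zero =>
    obtain ⟨p, -, hp⟩ := h.init
    simp only [zero_mul, pow_zero, one_mul, Nat.cast_zero, nonpos_iff_eq_zero]
    refine Finset.sum_eq_zero fun ω _ => le_antisymm ?_ zero_le
    refine le_trans (lintegral_mono_ae (g := fun _ => 0) ?_) (by simp)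
    filter_upwards [show ∀ᵐ s ∂σ, s ∈ closedBall 0 1 from hsupp] with s hs
    rw [tsub_le_iff_right, zero_add]
    refine le_trans ?_ (Finset.single_le_sum
      (f := fun t => 2 ^ (4 * q * t) * mass σ (H 0 ω) t s) (fun _ _ => zero_le)
      (show 0 ∈ Finset.range (N + 1) by simp))
    simp only [mul_zero, pow_zero, one_mul, mass, hp]
    rw [Measure.restrict_eq_self_of_ae_mem]
    · simp
    · filter_upwards [show ∀ᵐ s ∂σ, s ∈ closedBall 0 1 from hsupp] with s' hs'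
      refine closedBall_subset_closedBall' ?_ hs'
      rw [mem_closedBall, dist_comm] at hs
      simp only [rad]; linarith
  | succ J ih =>
    have := step (a := a) (y := y) hq hN σ hsupp hcap hΩ (H (J * q)) (h.measurable _) (h.sum_H _)
      (comp κ q (J * q)) (measurable_comp h.meas q _) (comp_sum h.sum_le q _) (H (J * q + q))
      (chain_comp h.meas h.succ q _) (((N + 1) * (2 ^ ((a + 3 * y + 12) * q)) ^ 2) ^ J)
    rw [← pow_succ, ← add_one_mul] at this
    refine this.trans ?_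
    push_cast
    rw [add_one_mul (J : ℝ≥0∞)]
    exact add_le_add ih le_rfl

theorem IsChain.count {Ω : Type} [Fintype Ω] {κ : ℕ → Ω → Ω → Euc d × ℝ → ℝ≥0∞}
    {H : ℕ → Ω → Euc d → ℝ≥0∞} (h : IsChain κ H) {q : ℕ}
    (σ : Measure (Euc d)) [IsProbabilityMeasure σ]
    (hcap : ∀ z r, 0 < r → σ (closedBall z r) ≤ ENNReal.ofReal (8 * r) ^ (7 * q))
    (π : Ω → Measure (Euc d)) [∀ ω, IsProbabilityMeasure (π ω)] {ε : ℝ} (hε : 0 < ε) (t : ℕ) :
    ∑ ω, ∫⁻ s, H t ω s * π ω (closedBall s ε) ∂σ ≤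
      Fintype.card Ω * ENNReal.ofReal (8 * ε) ^ (7 * q) := by
  rw [← Finset.card_univ, ← nsmul_eq_mul, ← Finset.sum_const]
  refine Finset.sum_le_sum fun ω _ => ?_
  calc _ ≤ ∫⁻ s, π ω (closedBall s ε) ∂σ := lintegral_mono fun s => mul_le_of_le_one_left'
        ((Finset.single_le_sum (f := fun ω => H t ω s) (fun _ _ => zero_le)
          (Finset.mem_univ ω)).trans (h.sum_H t s))
    _ ≤ _ := by
        rw [lintegral_ball_swap]
        exact (lintegral_mono fun s => hcap s ε hε).trans (by simp)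

theorem IsChain.main {Ω : Type} [Fintype Ω] {κ : ℕ → Ω → Ω → Euc d × ℝ → ℝ≥0∞}
    {H : ℕ → Ω → Euc d → ℝ≥0∞} (h : IsChain κ H) {q a J : ℕ} (hq : 2 ≤ q) (hd : d ≤ 16 * q)
    (σ : Measure (Euc d)) [IsProbabilityMeasure σ] (hsupp : σ (closedBall 0 1)ᶜ = 0)
    (hcap : ∀ z r, 0 < r → σ (closedBall z r) ≤ ENNReal.ofReal (8 * r) ^ (7 * q))
    (hΩ : Fintype.card Ω ≤ 2 ^ (a * q * q)) (hJ : 6 * J ≤ 2 ^ (a * q))
    (π : Ω → Measure (Euc d)) [∀ ω, IsProbabilityMeasure (π ω)] {ε : ℝ} (hε : 0 < ε) :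
    ∑ ω, ∫⁻ s, H (J * q) ω s * π ω (closedBall s ε) ∂σ ≤
      3⁻¹ + 2 ^ ((22 * a + 497) * (J + 2) * q) * ENNReal.ofReal ε ^ (3 * q) := by
  set N := a * q + a + 10 with hN
  set y := 3 * a + 77 with hy
  have hΩ' : (Fintype.card Ω : ℝ≥0∞) ≤ 2 ^ (a * q * q) := by exact_mod_cast hΩ
  have hex := h.excess (a := a) (y := y) (e := a * q * q + a * q) (N := N) hq
    (by rw [hN]; ring_nf; omega) σ hsupp hcap hΩ' J
  set K : ℝ≥0∞ := (N + 1) * (2 ^ ((a + 3 * y + 12) * q)) ^ 2 with hK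
  have hN1 : (N : ℝ≥0∞) + 1 ≤ 2 ^ ((2 * a + 11) * q) := by
    have : N + 1 ≤ 2 ^ ((2 * a + 11) * q) :=
      le_trans (by rw [hN]; nlinarith) (Nat.lt_two_pow_self (n := (2 * a + 11) * q)).le
    exact_mod_cast this
  have hK1 : K ≤ 2 ^ ((22 * a + 497) * q) := by
    refine (mul_le_mul_left hN1 _).trans (le_of_eq ?_)
    rw [← pow_mul, ← pow_add, hy]; congr 1; ring
  have hη : (N + 1) * (9 ^ d * (3 * (2 ^ (y * q))⁻¹)) + Fintype.card Ω * (2 ^ (a * q * q + a * q))⁻¹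
      ≤ 2 * ((2 : ℝ≥0∞) ^ (a * q))⁻¹ := by
    rw [two_mul]
    refine add_le_add ?_ ?_
    · have e1 : (9 : ℝ≥0∞) ^ d ≤ 2 ^ (64 * q) := by
        calc (9 : ℝ≥0∞) ^ d ≤ (2 ^ 4) ^ d := pow_le_pow_left' (by norm_num) d
          _ ≤ _ := by rw [← pow_mul]; exact pow_le_pow_right₀ (by norm_num) (by omega)
      have e2 : (3 : ℝ≥0∞) ≤ 2 ^ (2 * q) :=
        le_trans (by norm_num) (pow_le_pow_right₀ (by norm_num) (show 2 ≤ 2 * q by omega))
      calc _ ≤ (2 : ℝ≥0∞) ^ ((2 * a + 11) * q) * (2 ^ (64 * q) * (2 ^ (2 * q) * (2 ^ (y * q))⁻¹)) := by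
            gcongr
        _ = (2 ^ (y * q))⁻¹ * 2 ^ ((2 * a + 77) * q) := by
            rw [show (2 * a + 77) * q = (2 * a + 11) * q + 64 * q + 2 * q by ring, pow_add, pow_add]
            ring
        _ ≤ _ := two_pow_inv_mul (by rw [hy]; ring_nf; omega)
    · rw [mul_comm]
      exact (mul_le_mul_right hΩ' _).trans (two_pow_inv_mul (by omega))
  have hJη : (J : ℝ≥0∞) * (2 * ((2 : ℝ≥0∞) ^ (a * q))⁻¹) ≤ 3⁻¹ := by
    have e1 : (6 : ℝ≥0∞) * J ≤ 2 ^ (a * q) := by exact_mod_cast hJ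
    rw [ENNReal.le_inv_iff_mul_le]
    calc _ = 6 * J * ((2 : ℝ≥0∞) ^ (a * q))⁻¹ := by ring
      _ ≤ 2 ^ (a * q) * ((2 : ℝ≥0∞) ^ (a * q))⁻¹ := mul_le_mul_left e1 _
      _ = 1 := ENNReal.mul_inv_cancel (by simp) (by simp)
  have hm := h.measurable (J * q)
  calc _ ≤ ∑ ω, (∫⁻ s, (H (J * q) ω s - K ^ J * pot σ q N (H (J * q) ω) s) ∂σ +
          K ^ J * ((N + 1) * (2 ^ (25 * q) * ENNReal.ofReal ε ^ (3 * q) *
            ∫⁻ s, H (J * q) ω s ∂σ))) := by
        refine Finset.sum_le_sum fun ω _ => ?_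
        refine le_trans ?_ (add_le_add le_rfl (mul_le_mul_right
          (pot_success σ (π ω) hcap (hm ω) hε) _))
        rw [← lintegral_const_mul _ ((measurable_pot σ q N (hm ω)).fun_mul
          (measurable_ball_measure _ ε)), ← lintegral_add_left ((hm ω).fun_sub
            ((measurable_pot σ q N (hm ω)).const_mul _))]
        refine lintegral_mono fun s => ?_
        calc H (J * q) ω s * π ω (closedBall s ε)
            ≤ ((H (J * q) ω s - K ^ J * pot σ q N (H (J * q) ω) s) +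
              K ^ J * pot σ q N (H (J * q) ω) s) * π ω (closedBall s ε) :=
              mul_le_mul_left le_tsub_add _
          _ ≤ _ := by
              rw [add_mul, mul_assoc]
              exact add_le_add (mul_le_of_le_one_right' prob_le_one) le_rfl
    _ ≤ _ := by
        rw [Finset.sum_add_distrib]
        refine add_le_add (hex.trans ((mul_le_mul_right hη _).trans hJη)) ?_
        rw [← Finset.mul_sum, ← Finset.mul_sum, ← Finset.mul_sum,
          ← lintegral_finset_sum _ fun ω _ => hm ω]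
        have e1 : ∫⁻ s, ∑ ω, H (J * q) ω s ∂σ ≤ 1 := (lintegral_mono (h.sum_H _)).trans (by simp)
        calc _ ≤ (2 ^ ((22 * a + 497) * q)) ^ J * (2 ^ ((2 * a + 11) * q) *
              (2 ^ (25 * q) * ENNReal.ofReal ε ^ (3 * q) * 1)) := by gcongr
          _ = 2 ^ ((22 * a + 497) * q * J + (2 * a + 11) * q + 25 * q) *
              ENNReal.ofReal ε ^ (3 * q) := by rw [pow_add, pow_add, ← pow_mul]; ring
          _ ≤ _ := mul_le_mul_left (pow_le_pow_right₀ (by norm_num) (by ring_nf; omega)) _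

end Vale.Agent.P309
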