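import Mathlib

/-!
The streaming model for noiseless Gaussian linear regression.
-/

namespace Vale.Agent.P309

open MeasureTheory ProbabilityTheory
open scoped ENNReal RealInnerProductSpace

/-- The uniform probability measure on the unit sphere of `ℝ^d` (normalized surface measure). -/
noncomputable def unifSphere (d : ℕ) : Measure (Metric.sphere (0 : EuclideanSpace ℝ (Fin d)) 1) :=
  ((volume : Measure (EuclideanSpace ℝ (Fin d))).toSphere Set.univ)⁻¹ •
    (volume : Measure (EuclideanSpace ℝ (Fin d))).toSphere

/-- A streaming learner in dimension `d` with persistent states in `St`. All its randomness is a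
seed `r : R`, available at every step. The Boolean is the stopping decision (`true` = stop).
`init r` is the initial state, `step r t m (x, y)` the new state and stopping decision after
reading the pair `(x, y)` in state `m` when `t` pairs have been read before, and `out r t m` is the
estimate when the final state is `m` after `t` pairs. -/
structure Learner (d : ℕ) (St R : Type) [MeasurableSpace St] [MeasurableSpace R] where
  init : R → St × Bool
  step : R → ℕ → St → EuclideanSpace ℝ (Fin d) × ℝ → St × Bool
  out : R → ℕ → St → Metric.sphere (0 : EuclideanSpace ℝ (Fin d)) 1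
  measurable_init : Measurable init
  measurable_step : ∀ t m, Measurable fun p : R × (EuclideanSpace ℝ (Fin d) × ℝ) => step p.1 t m p.2
  measurable_out : ∀ t m, Measurable fun r => out r t m

/-- The estimate of the learner with seed `r`, when `t` pairs have been read, the current state and
stopping decision are `c`, and at most `k` further pairs `Z 0, …, Z (k-1)` may be read. -/
def Learner.run {d : ℕ} {St R : Type} [MeasurableSpace St] [MeasurableSpace R]
    (L : Learner d St R) (r : R) : (k : ℕ) → ℕ → St × Bool →
      (Fin k → EuclideanSpace ℝ (Fin d) × ℝ) → Metric.sphere (0 : EuclideanSpace ℝ (Fin d)) 1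
  | 0, t, c, _ => L.out r t c.1
  | k + 1, t, c, Z =>
      if c.2 = true then L.out r t c.1 else L.run r k (t + 1) (L.step r t c.1 (Z 0)) (Fin.tail Z)

/-- The probability that the learner with horizon `T` outputs an estimate within angle `ε` of the
signal. The seed `p.1` has law `ρ`, the signal `p.2.1` is uniform on the sphere, the rows `p.2.2 i`
are standard Gaussian, all independent, and the labels are the exact inner products. -/
noncomputable def Learner.success {d : ℕ} {St R : Type} [MeasurableSpace St] [MeasurableSpace R]
    (L : Learner d St R) (ρ : Measure R) (T : ℕ) (ε : ℝ) : ℝ≥0∞ :=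
  (ρ.prod ((unifSphere d).prod
      (Measure.pi fun _ : Fin T => stdGaussian (EuclideanSpace ℝ (Fin d)))))
    {p | Real.arccos ⟪(L.run p.1 T 0 (L.init p.1) fun i => (p.2.2 i, ⟪p.2.2 i, p.2.1.1⟫)).1,
      p.2.1.1⟫ ≤ ε}

end Vale.Agent.P309
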