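import Vale.Agent.P309.Gauss

/-!
A multilinear estimate for the joint law of Gaussian rows and exact labels.
-/

namespace Vale.Agent.P309

open MeasureTheory ProbabilityTheory Set Filter
open scoped ENNReal RealInnerProductSpace Topology

variable {d : ℕ}

theorem lintegral_pi_cons {α : Type} [MeasurableSpace α] (μ : Measure α) [SigmaFinite μ] {k : ℕ}
    (f : (Fin (k + 1) → α) → ℝ≥0∞) (hf : Measurable f) :
    ∫⁻ X, f X ∂Measure.pi (fun _ => μ) =
      ∫⁻ x, ∫⁻ X, f (Fin.cons x X) ∂Measure.pi (fun _ => μ) ∂μ := by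
  have h := (measurePreserving_piFinSuccAbove (fun _ : Fin (k + 1) => μ) 0).symm
  rw [← h.lintegral_comp hf, lintegral_prod _ (by exact (hf.comp h.measurable).aemeasurable)]
  simp [MeasurableEquiv.piFinSuccAbove_symm_apply, Fin.insertNthEquiv]

theorem lintegral_pi_prod {α : Type} [MeasurableSpace α] (μ : Measure α) [SigmaFinite μ] {k : ℕ}
    (f : Fin k → α → ℝ≥0∞) (hf : ∀ i, Measurable (f i)) :
    ∫⁻ X, ∏ i, f i (X i) ∂Measure.pi (fun _ => μ) = ∏ i, ∫⁻ x, f i x ∂μ := by
  induction k with
  | zero => simp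
  | succ k ih =>
    rw [lintegral_pi_cons μ _ (Finset.measurable_prod _ fun i _ => by
      exact (hf i).comp (measurable_pi_apply i)), Fin.prod_univ_succ, ← ih _ fun i => hf i.succ]
    simp only [Fin.prod_univ_succ, Fin.cons_zero, Fin.cons_succ]
    rw [← lintegral_mul_const _ (hf 0)]
    refine lintegral_congr fun x => ?_
    rw [lintegral_const_mul _ (Finset.measurable_prod _ fun i _ => by
      exact (hf i.succ).comp (measurable_pi_apply i))]

/-- The law of `k` independent Gaussian rows. -/
noncomputable abbrev rows (d k : ℕ) : Measure (Fin k → Euc d) :=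
  Measure.pi fun _ => stdGaussian (Euc d)

/-- The labels of a signal. -/
noncomputable def ev {k : ℕ} (X : Fin k → Euc d) (s : Euc d) : Fin k → ℝ := fun i => ⟪X i, s⟫

/-- Product bound for box probabilities. -/
noncomputable def bd (a : ℝ) : List (Euc d) → ℝ≥0∞
  | [] => 1
  | v :: vs => bd a vs * (ENNReal.ofReal a * idist v vs)

theorem gauss_box {a : ℝ} (ha : 0 < a) (vs : List (Euc d)) :
    stdGaussian (Euc d) (box a vs) ≤ bd a vs := by
  induction vs with
  | nil => exact prob_le_one
  | cons v vs ih => exact (gauss_box_cons ha v vs).trans (mul_le_mul_left ih _)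

theorem measurable_idist (s1 : Euc d) (vs : List (Euc d)) :
    Measurable fun s => idist (s - s1) vs := by
  unfold idist
  exact (((Metric.continuous_infDist_pt _).comp (by fun_prop)).measurable.ennreal_ofReal).inv

theorem drury_ind {k l : ℕ} {a : ℝ} (ha : 0 < a) (ν : Measure (Euc d)) [IsFiniteMeasure ν]
    (s1 : Euc d) {I : ℝ≥0∞}
    (hI : ∀ vs : List (Euc d), vs.length < l → ∫⁻ s, idist (s - s1) vs ^ k ∂ν ≤ I) (r : ℕ) :
    ∀ vs : List (Euc d), vs.length + r ≤ l →
      ∫⁻ X in univ.pi fun _ => box a vs, ν {s | ∀ i, |⟪X i, s - s1⟫| ≤ a} ^ r ∂rows d k ≤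
        (ENNReal.ofReal a ^ k * I) ^ r * bd a vs ^ k := by
  have hE : MeasurableSet {p : (Fin k → Euc d) × Euc d | ∀ i, |⟪p.1 i, p.2 - s1⟫| ≤ a} := by
    rw [setOf_forall]
    exact MeasurableSet.iInter fun i => measurableSet_le (by fun_prop) measurable_const
  have hT : Measurable fun X : Fin k → Euc d => ν {s | ∀ i, |⟪X i, s - s1⟫| ≤ a} :=
    measurable_measure_prodMk_left hE
  have hB : ∀ vs : List (Euc d), MeasurableSet (univ.pi fun _ : Fin k => box a vs) := fun vs =>
    MeasurableSet.univ_pi fun _ => measurableSet_box a vs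
  induction r with
  | zero =>
    intro vs _
    simp only [pow_zero, setLIntegral_one, one_mul]
    rw [Measure.pi_pi, Finset.prod_const, Finset.card_univ, Fintype.card_fin]
    exact pow_le_pow_left' (gauss_box ha vs) k
  | succ r ih =>
    intro vs hvs
    set T : (Fin k → Euc d) → ℝ≥0∞ := fun X => ν {s | ∀ i, |⟪X i, s - s1⟫| ≤ a} with hTd
    set E := {p : (Fin k → Euc d) × Euc d | ∀ i, |⟪p.1 i, p.2 - s1⟫| ≤ a} with hEd
    have h1 : ∀ X, T X ^ (r + 1) = ∫⁻ s, E.indicator (fun p => T p.1 ^ r) (X, s) ∂ν := by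
      intro X
      have : (fun s => E.indicator (fun p => T p.1 ^ r) (X, s)) =
          (Prod.mk X ⁻¹' E).indicator fun _ => T X ^ r := by
        funext s; simp [indicator]
      rw [this, lintegral_indicator_const (measurable_prodMk_left hE), pow_succ]
      rfl
    have hm : Measurable (E.indicator fun p : (Fin k → Euc d) × Euc d => T p.1 ^ r) :=
      ((hT.comp measurable_fst).pow_const r).indicator hE
    calc ∫⁻ X in univ.pi fun _ => box a vs, T X ^ (r + 1) ∂rows d k
        = ∫⁻ X in univ.pi fun _ => box a vs,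
            ∫⁻ s, E.indicator (fun p => T p.1 ^ r) (X, s) ∂ν ∂rows d k :=
          lintegral_congr h1
      _ = ∫⁻ s, (∫⁻ X in univ.pi fun _ => box a vs,
            E.indicator (fun p => T p.1 ^ r) (X, s) ∂rows d k) ∂ν :=
          lintegral_lintegral_swap hm.aemeasurable
      _ ≤ ∫⁻ s, (ENNReal.ofReal a ^ k * I) ^ r * bd a vs ^ k * ENNReal.ofReal a ^ k *
            idist (s - s1) vs ^ k ∂ν := by
          refine lintegral_mono fun s => ?_
          have h2 := ih ((s - s1) :: vs) (by simp only [List.length_cons]; omega)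
          have h3 : (fun X => E.indicator (fun p => T p.1 ^ r) (X, s)) =
              ((fun X => (X, s)) ⁻¹' E).indicator fun X => T X ^ r := by
            funext X; simp [indicator]
          rw [h3, setLIntegral_indicator (measurable_prodMk_right hE)]
          have h4 : (fun X => (X, s)) ⁻¹' E ∩ (univ.pi fun _ => box a vs) =
              univ.pi fun _ : Fin k => box a ((s - s1) :: vs) := by
            ext X; simp [hEd, box, forall_and]
          rw [h4]
          refine h2.trans (le_of_eq ?_)
          simp only [bd, mul_pow]; ring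
      _ ≤ (ENNReal.ofReal a ^ k * I) ^ r * bd a vs ^ k * ENNReal.ofReal a ^ k * I := by
          rw [lintegral_const_mul _ ((measurable_idist s1 vs).pow_const k)]
          exact mul_le_mul_right (hI vs (by omega)) _
      _ = _ := by ring

/-- Signals whose labels are close to `Y`. -/
def near {k : ℕ} (τ : ℝ) : Set (((Fin k → Euc d) × (Fin k → ℝ)) × Euc d) :=
  {p | ∀ i, |p.1.2 i - ⟪p.1.1 i, p.2⟫| ≤ τ}

theorem measurableSet_near {k : ℕ} (τ : ℝ) : MeasurableSet (near (d := d) (k := k) τ) := by
  rw [near, setOf_forall]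
  exact MeasurableSet.iInter fun i => measurableSet_le (by fun_prop) measurable_const

theorem near_slice {k : ℕ} {τ : ℝ} (hτ : 0 ≤ τ) (X : Fin k → Euc d) (s : Euc d) :
    {Y | ((X, Y), s) ∈ near τ} = Metric.closedBall (ev X s) τ := by
  ext Y
  simp [near, ev, dist_pi_le_iff hτ, Real.dist_eq]

theorem vol_near {k : ℕ} {τ : ℝ} (hτ : 0 ≤ τ) (X : Fin k → Euc d) (s : Euc d) :
    volume {Y | ((X, Y), s) ∈ near τ} = ENNReal.ofReal (2 * τ) ^ k := by
  rw [near_slice hτ, Real.volume_pi_closedBall _ hτ, Fintype.card_fin,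
    ENNReal.ofReal_pow (by positivity)]

theorem drury_pow {k l : ℕ} {τ : ℝ} (hτ : 0 < τ) (ν : Measure (Euc d)) [IsFiniteMeasure ν]
    {I : ℝ≥0∞}
    (hI : ∀ s1, ∀ vs : List (Euc d), vs.length < l → ∫⁻ s, idist (s - s1) vs ^ k ∂ν ≤ I) :
    ∫⁻ p, ν (Prod.mk p ⁻¹' near τ) ^ (l + 1) ∂(rows d k).prod volume ≤
      (ENNReal.ofReal (2 * τ) ^ k) ^ (l + 1) * (ν univ * I ^ l) := by
  set N : (Fin k → Euc d) × (Fin k → ℝ) → ℝ≥0∞ := fun p => ν (Prod.mk p ⁻¹' near τ) with hN
  have hNm : Measurable N := measurable_measure_prodMk_left (measurableSet_near τ)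
  have h1 : ∀ p, N p ^ (l + 1) = ∫⁻ s, (near τ).indicator (fun q => N q.1 ^ l) (p, s) ∂ν := by
    intro p
    have : (fun s => (near τ).indicator (fun q => N q.1 ^ l) (p, s)) =
        (Prod.mk p ⁻¹' near τ).indicator fun _ => N p ^ l := by
      funext s; rfl
    rw [this, lintegral_indicator_const (measurable_prodMk_left (measurableSet_near τ)), pow_succ]
  have hm : Measurable ((near τ).indicator fun q : ((Fin k → Euc d) × (Fin k → ℝ)) × Euc d =>
      N q.1 ^ l) := ((hNm.comp measurable_fst).pow_const l).indicator (measurableSet_near τ)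
  calc ∫⁻ p, N p ^ (l + 1) ∂(rows d k).prod volume
      = ∫⁻ p, ∫⁻ s, (near τ).indicator (fun q => N q.1 ^ l) (p, s) ∂ν
          ∂(rows d k).prod volume := lintegral_congr h1
    _ = ∫⁻ s, (∫⁻ p, (near τ).indicator (fun q => N q.1 ^ l) (p, s) ∂(rows d k).prod volume) ∂ν :=
        lintegral_lintegral_swap hm.aemeasurable
    _ ≤ ∫⁻ _s, (ENNReal.ofReal (2 * τ) ^ k * I) ^ l * ENNReal.ofReal (2 * τ) ^ k ∂ν := by
        refine lintegral_mono fun s => ?_
        rw [lintegral_prod _ (by exact (hm.comp measurable_prodMk_right).aemeasurable)]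
        have hE : MeasurableSet {p : (Fin k → Euc d) × Euc d | ∀ i, |⟪p.1 i, p.2 - s⟫| ≤ 2 * τ} := by
          rw [setOf_forall]
          exact MeasurableSet.iInter fun i => measurableSet_le (by fun_prop) measurable_const
        have hT : Measurable fun X : Fin k → Euc d => ν {s' | ∀ i, |⟪X i, s' - s⟫| ≤ 2 * τ} :=
          measurable_measure_prodMk_left hE
        have h2 := drury_ind (k := k) (by positivity : 0 < 2 * τ) ν s (hI s) l [] (by simp)
        have h3 : (univ.pi fun _ : Fin k => box (2 * τ) ([] : List (Euc d))) = univ := by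
          ext X; simp [box]
        rw [h3, Measure.restrict_univ] at h2
        simp only [bd, one_pow, mul_one] at h2
        calc _ ≤ ∫⁻ X, ν {s' | ∀ i, |⟪X i, s' - s⟫| ≤ 2 * τ} ^ l * ENNReal.ofReal (2 * τ) ^ k
              ∂rows d k := by
              refine lintegral_mono fun X => ?_
              rw [← vol_near hτ.le X s, ← lintegral_indicator_const
                (by rw [near_slice hτ.le]; exact measurableSet_closedBall)]
              refine lintegral_mono fun Y => ?_
              by_cases hY : ((X, Y), s) ∈ near τ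
              · rw [indicator_of_mem hY, indicator_of_mem (by exact hY)]
                refine pow_le_pow_left' (measure_mono fun s' hs' i => ?_) l
                have a1 := abs_le.1 (hY i)
                have a2 := abs_le.1 (hs' i)
                simp only at a1 a2
                rw [inner_sub_right]
                exact abs_le.2 ⟨by linarith [a1.1, a2.2], by linarith [a1.2, a2.1]⟩
              · rw [indicator_of_notMem hY]; exact zero_le
          _ ≤ _ := by
              rw [lintegral_mul_const _ (hT.pow_const l)]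
              exact mul_le_mul_left h2 _
    _ = _ := by rw [lintegral_const]; ring

/-- Joint law of rows and labels when the signal has law `ν`. -/
noncomputable def lam (k : ℕ) (ν : Measure (Euc d)) : Measure ((Fin k → Euc d) × (Fin k → ℝ)) :=
  (ν.prod (rows d k)).map fun p => (p.2, ev p.2 p.1)

theorem measurable_ev {k : ℕ} :
    Measurable fun p : Euc d × (Fin k → Euc d) => (p.2, ev p.2 p.1) := by
  refine measurable_snd.prodMk (measurable_pi_lambda _ fun i => ?_)
  unfold ev
  fun_prop

theorem le_add_pow_div (T z : ℝ≥0∞) (hz : z ≠ 0) (hz' : z ≠ ⊤) (l : ℕ) :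
    T ≤ z + T ^ (l + 1) / z ^ l := by
  rcases le_total T z with h | h
  · exact h.trans le_self_add
  · refine le_add_left ?_
    rw [ENNReal.le_div_iff_mul_le (Or.inl (pow_ne_zero _ hz)) (Or.inl (ENNReal.pow_ne_top hz')),
      pow_succ']
    exact mul_le_mul_right (pow_le_pow_left' h l) _

theorem lam_open {k l : ℕ} (ν : Measure (Euc d)) [IsFiniteMeasure ν] {I z : ℝ≥0∞}
    (hz : z ≠ 0) (hz' : z ≠ ⊤)
    (hI : ∀ s1, ∀ vs : List (Euc d), vs.length < l → ∫⁻ s, idist (s - s1) vs ^ k ∂ν ≤ I)
    {U : Set ((Fin k → Euc d) × (Fin k → ℝ))} (hU : IsOpen U) :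
    lam k ν U ≤ z * (rows d k).prod volume U + ν univ * I ^ l / z ^ l := by
  set τ : ℕ → ℝ := fun n => 1 / ((n : ℝ) + 1) with hτ
  have hτp : ∀ n, 0 < τ n := fun n => Nat.one_div_pos_of_nat
  set V : ℕ → ℝ≥0∞ := fun n => ENNReal.ofReal (2 * τ n) ^ k with hV
  have hV0 : ∀ n, V n ≠ 0 := fun n => pow_ne_zero _ (by simpa using hτp n)
  have hVt : ∀ n, V n ≠ ⊤ := fun n => ENNReal.pow_ne_top ENNReal.ofReal_ne_top
  set F : ℕ → Set ((Euc d × (Fin k → Euc d)) × (Fin k → ℝ)) := fun n =>
    {q | (q.1.2, q.2) ∈ U ∧ ((q.1.2, q.2), q.1.1) ∈ near (τ n)} with hF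
  have hFm : ∀ n, MeasurableSet (F n) := fun n =>
    ((by fun_prop : Measurable fun q : (Euc d × (Fin k → Euc d)) × (Fin k → ℝ) => (q.1.2, q.2))
      hU.measurableSet).inter
      ((by fun_prop : Measurable fun q : (Euc d × (Fin k → Euc d)) × (Fin k → ℝ) =>
        ((q.1.2, q.2), q.1.1)) (measurableSet_near _))
  set φ : ℕ → Euc d × (Fin k → Euc d) → ℝ≥0∞ := fun n p =>
    (V n)⁻¹ * volume (Prod.mk p ⁻¹' F n) with hφ
  have hφm : ∀ n, Measurable (φ n) := fun n =>
    (measurable_measure_prodMk_left (hFm n)).const_mul _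
  have hbound : ∀ n, ∫⁻ p, φ n p ∂ν.prod (rows d k) ≤
      z * (rows d k).prod volume U + ν univ * I ^ l / z ^ l := by
    intro n
    set N : (Fin k → Euc d) × (Fin k → ℝ) → ℝ≥0∞ := fun p => ν (Prod.mk p ⁻¹' near (τ n)) with hN
    have hNm : Measurable N := measurable_measure_prodMk_left (measurableSet_near _)
    have e1 : ∫⁻ p, volume (Prod.mk p ⁻¹' F n) ∂ν.prod (rows d k) =
        ∫⁻ p in U, N p ∂(rows d k).prod volume := by
      rw [← Measure.prod_apply (hFm n), ← lintegral_indicator hU.measurableSet]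
      have hA := (measurePreserving_prodAssoc ν (rows d k) (volume : Measure (Fin k → ℝ)))
      set G : Set (Euc d × ((Fin k → Euc d) × (Fin k → ℝ))) :=
        {q | q.2 ∈ U ∧ (q.2, q.1) ∈ near (τ n)} with hG
      have hGm : MeasurableSet G := (measurable_snd hU.measurableSet).inter
        ((measurable_snd.prodMk measurable_fst) (measurableSet_near _))
      have : F n = MeasurableEquiv.prodAssoc ⁻¹' G := rfl
      rw [this, hA.measure_preimage hGm.nullMeasurableSet, Measure.prod_apply_symm hGm]
      refine lintegral_congr fun p => ?_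
      by_cases hp : p ∈ U
      · rw [indicator_of_mem hp]
        congr 1
        ext s; simp [hG, hp]
      · rw [indicator_of_notMem hp]
        have : (fun x => (x, p)) ⁻¹' G = ∅ := by ext s; simp [hG, hp]
        rw [this, measure_empty]
    rw [hφ]
    simp only
    rw [lintegral_const_mul _ (measurable_measure_prodMk_left (hFm n)), e1,
      ← lintegral_const_mul _ hNm]
    calc ∫⁻ p in U, (V n)⁻¹ * N p ∂(rows d k).prod volume
        ≤ ∫⁻ p in U, (z + ((V n)⁻¹ ^ (l + 1) / z ^ l) * N p ^ (l + 1))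
            ∂(rows d k).prod volume := by
          refine lintegral_mono fun p => (le_add_pow_div _ z hz hz' l).trans (le_of_eq ?_)
          rw [mul_pow, div_eq_mul_inv, div_eq_mul_inv]; ring
      _ ≤ z * (rows d k).prod volume U +
            ((V n)⁻¹ ^ (l + 1) / z ^ l) * (V n ^ (l + 1) * (ν univ * I ^ l)) := by
          rw [lintegral_add_left measurable_const, setLIntegral_const,
            lintegral_const_mul _ (hNm.pow_const _)]
          refine add_le_add le_rfl (mul_le_mul_right ?_ _)
          exact (setLIntegral_le_lintegral _ _).trans (drury_pow (hτp n) ν hI)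
      _ = _ := by
          congr 1
          rw [div_eq_mul_inv, div_eq_mul_inv]
          calc (V n)⁻¹ ^ (l + 1) * (z ^ l)⁻¹ * (V n ^ (l + 1) * (ν univ * I ^ l))
              = ((V n)⁻¹ * V n) ^ (l + 1) * (ν univ * I ^ l * (z ^ l)⁻¹) := by
                rw [mul_pow]; ring
            _ = _ := by rw [ENNReal.inv_mul_cancel (hV0 n) (hVt n), one_pow, one_mul]
  rw [lam, Measure.map_apply measurable_ev hU.measurableSet,
    ← lintegral_indicator_one (measurable_ev hU.measurableSet)]
  calc _ ≤ ∫⁻ p, liminf (fun n => φ n p) atTop ∂ν.prod (rows d k) := by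
        refine lintegral_mono fun p => ?_
        by_cases hp : p ∈ (fun p : Euc d × (Fin k → Euc d) => (p.2, ev p.2 p.1)) ⁻¹' U
        · rw [indicator_of_mem hp]
          have ho : IsOpen (Prod.mk p.2 ⁻¹' U) := hU.preimage (by fun_prop)
          obtain ⟨ε, hε, hb⟩ := Metric.isOpen_iff.1 ho (ev p.2 p.1) hp
          refine le_liminf_of_le (by isBoundedDefault) ?_
          have := (tendsto_one_div_add_atTop_nhds_zero_nat (𝕜 := ℝ)).eventually
            (gt_mem_nhds hε)
          filter_upwards [this] with n hn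
          have : Prod.mk p ⁻¹' F n = {Y | ((p.2, Y), p.1) ∈ near (τ n)} := by
            ext Y
            simp only [hF, mem_preimage, mem_setOf_eq, and_iff_right_iff_imp]
            intro hY
            have : Y ∈ Metric.closedBall (ev p.2 p.1) (τ n) := by
              rw [← near_slice (hτp n).le]; exact hY
            exact hb (Metric.closedBall_subset_ball hn this)
          simp only [hφ, this, vol_near (hτp n).le, Pi.one_apply]
          exact (ENNReal.inv_mul_cancel (hV0 n) (hVt n)).ge
        · rw [indicator_of_notMem hp]; exact zero_le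
    _ ≤ liminf (fun n => ∫⁻ p, φ n p ∂ν.prod (rows d k)) atTop := lintegral_liminf_le hφm
    _ ≤ _ := liminf_le_of_frequently_le' (Frequently.of_forall hbound)

theorem lam_set {k l : ℕ} (ν : Measure (Euc d)) [IsFiniteMeasure ν] {I z : ℝ≥0∞}
    (hz : z ≠ 0) (hz' : z ≠ ⊤)
    (hI : ∀ s1, ∀ vs : List (Euc d), vs.length < l → ∫⁻ s, idist (s - s1) vs ^ k ∂ν ≤ I)
    (A : Set ((Fin k → Euc d) × (Fin k → ℝ))) :
    lam k ν A ≤ z * (rows d k).prod volume A + ν univ * I ^ l / z ^ l := by
  refine ENNReal.le_of_forall_pos_le_add fun ε hε _ => ?_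
  obtain ⟨U, hAU, hU, hle⟩ := A.exists_isOpen_le_add ((rows d k).prod volume)
    (ε := ε / z) (by simp [hε.ne', hz'])
  calc lam k ν A ≤ lam k ν U := measure_mono hAU
    _ ≤ z * (rows d k).prod volume U + ν univ * I ^ l / z ^ l := lam_open ν hz hz' hI hU
    _ ≤ z * ((rows d k).prod volume A + ε / z) + ν univ * I ^ l / z ^ l := by gcongr
    _ = _ := by rw [mul_add, ENNReal.mul_div_cancel hz hz']; ring

theorem lintegral_le_of_measure_le {α : Type} [MeasurableSpace α] (μ ρ : Measure α) [SFinite ρ]
    {z c : ℝ≥0∞} (h : ∀ A, μ A ≤ z * ρ A + c) (g : α → ℝ≥0∞) (hg : Measurable g)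
    (hg1 : ∀ x, g x ≤ 1) : ∫⁻ x, g x ∂μ ≤ z * ∫⁻ x, g x ∂ρ + c := by
  have he : ∀ x, g x = ENNReal.ofReal (g x).toReal := fun x =>
    (ENNReal.ofReal_toReal (ne_top_of_le_ne_top ENNReal.one_ne_top (hg1 x))).symm
  have lc := fun m : Measure α => lintegral_eq_lintegral_meas_lt m (f := fun x => (g x).toReal)
    (Eventually.of_forall fun x => ENNReal.toReal_nonneg) hg.ennreal_toReal.aemeasurable
  simp only [← he] at lc
  rw [lc μ, lc ρ]
  have hm : Measurable fun t : ℝ => ρ {a | t < (g a).toReal} :=
    measurable_measure_prodMk_left (s := {p : ℝ × α | p.1 < (g p.2).toReal})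
      (measurableSet_lt measurable_fst (hg.comp measurable_snd).ennreal_toReal)
  calc _ ≤ ∫⁻ t in Ioi 0, (z * ρ {a | t < (g a).toReal} + (Iio (1 : ℝ)).indicator (fun _ => c) t) := by
        refine lintegral_mono fun t => ?_
        by_cases ht : t < 1
        · rw [indicator_of_mem (by exact ht)]; exact h _
        · have : {a | t < (g a).toReal} = ∅ := by
            ext a
            have : (g a).toReal ≤ 1 := by
              simpa using ENNReal.toReal_mono ENNReal.one_ne_top (hg1 a)
            simp only [mem_setOf_eq, mem_empty_iff_false, iff_false]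
            linarith
          simp [this]
    _ = _ := by
        rw [lintegral_add_left (hm.const_mul z), lintegral_const_mul _ hm,
          lintegral_indicator_const measurableSet_Iio, Measure.restrict_apply measurableSet_Iio,
          Iio_inter_Ioi]
        simp

theorem drury {k l : ℕ} (ν : Measure (Euc d)) [IsFiniteMeasure ν] {I z : ℝ≥0∞}
    (hz : z ≠ 0) (hz' : z ≠ ⊤)
    (hI : ∀ s1, ∀ vs : List (Euc d), vs.length < l → ∫⁻ s, idist (s - s1) vs ^ k ∂ν ≤ I)
    (g : (Fin k → Euc d) × (Fin k → ℝ) → ℝ≥0∞) (hg : Measurable g) (hg1 : ∀ x, g x ≤ 1) :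
    ∫⁻ s, ∫⁻ X, g (X, ev X s) ∂rows d k ∂ν ≤
      z * ∫⁻ p, g p ∂(rows d k).prod volume + ν univ * I ^ l / z ^ l := by
  have := lintegral_le_of_measure_le (lam k ν) ((rows d k).prod volume) (lam_set ν hz hz' hI)
    g hg hg1
  rwa [lam, lintegral_map hg measurable_ev,
    lintegral_prod _ (by exact (hg.comp measurable_ev).aemeasurable)] at this

end Vale.Agent.P309
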