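import Vale.Agent.P309.Drury

/-!
Nets and the energy bound for measures with a Frostman condition.
-/

namespace Vale.Agent.P309

open MeasureTheory ProbabilityTheory Set Filter Metric
open scoped ENNReal RealInnerProductSpace Topology

theorem card_le_of_sep {F : Type} [NormedAddCommGroup F] [NormedSpace ℝ F] [FiniteDimensional ℝ F]
    (S : Finset F) (w : F) {δ R : ℝ} (hδ : 0 < δ) (hR : 0 ≤ R)
    (hS : ∀ c ∈ S, ‖c - w‖ ≤ R) (hsep : ∀ c ∈ S, ∀ c' ∈ S, c ≠ c' → δ ≤ ‖c - c'‖) :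
    (S.card : ℝ) ≤ (1 + 2 * R / δ) ^ Module.finrank ℝ F := by
  borelize F
  let μ : Measure F := Measure.addHaar
  have hv : ∀ (x : F) (r : ℝ), 0 < r →
      μ.real (ball x r) = r ^ Module.finrank ℝ F * μ.real (ball 0 1) := fun x r hr => by
    simp [measureReal_def, Measure.addHaar_ball_of_pos μ x hr, ENNReal.toReal_ofReal,
      pow_nonneg hr.le]
  have hp : 0 < μ.real (ball 0 1) :=
    ENNReal.toReal_pos (measure_ball_pos _ _ one_pos).ne' measure_ball_lt_top.ne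
  have hD : (S : Set F).PairwiseDisjoint (fun c => ball c (δ / 2)) := by
    intro c hc c' hc' hne
    apply ball_disjoint_ball
    rw [dist_eq_norm]
    linarith [hsep c hc c' hc' hne]
  have h1 := measureReal_biUnion_finset (μ := μ) hD
    (fun _ _ => measurableSet_ball) (fun _ _ => measure_ball_lt_top.ne)
  have h2 : (⋃ c ∈ S, ball c (δ / 2)) ⊆ ball w (R + δ / 2) := by
    refine Set.iUnion₂_subset fun c hc => ball_subset_ball' ?_
    rw [dist_eq_norm]
    linarith [hS c hc]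
  have h3 := measureReal_mono (μ := μ) h2 measure_ball_lt_top.ne
  rw [h1, hv _ _ (by linarith), Finset.sum_congr rfl (fun c _ => hv c _ (half_pos hδ)),
    Finset.sum_const, nsmul_eq_mul, ← mul_assoc] at h3
  have h4 := le_of_mul_le_mul_right h3 hp
  have h5 : (1 + 2 * R / δ) = (R + δ / 2) / (δ / 2) := by field_simp; ring
  rw [h5, div_pow, le_div_iff₀ (by positivity)]
  exact h4

theorem exists_net {F : Type} [NormedAddCommGroup F] [NormedSpace ℝ F] [FiniteDimensional ℝ F]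
    (w : F) {r δ : ℝ} (hr : 0 ≤ r) (hδ : 0 < δ) :
    ∃ Y : Finset F, (∀ y ∈ Y, ‖y - w‖ ≤ r) ∧ (∀ c ∈ Y, ∀ c' ∈ Y, c ≠ c' → δ ≤ ‖c - c'‖) ∧
      ∀ z : F, ‖z - w‖ ≤ r → ∃ y ∈ Y, ‖z - y‖ ≤ δ := by
  classical
  let P : ℕ → Prop := fun k => ∃ Y : Finset F, Y.card = k ∧ (∀ y ∈ Y, ‖y - w‖ ≤ r) ∧
    (∀ c ∈ Y, ∀ c' ∈ Y, c ≠ c' → δ ≤ ‖c - c'‖)
  obtain ⟨B, hB⟩ := exists_nat_ge ((1 + 2 * r / δ) ^ Module.finrank ℝ F)
  have hbd : ∀ k, P k → k ≤ B := by
    rintro k ⟨Y, rfl, h1, h2⟩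
    have := card_le_of_sep Y w hδ hr h1 h2
    exact_mod_cast this.trans hB
  have h0 : P 0 := ⟨∅, rfl, by simp, by simp⟩
  obtain ⟨Y, hY, h1, h2⟩ := Nat.findGreatest_spec (P := P) (Nat.zero_le B) h0
  refine ⟨Y, h1, h2, fun z hz => ?_⟩
  by_contra hcon
  push Not at hcon
  have hzY : z ∉ Y := fun h => by
    have := hcon z h
    simp at this
    linarith
  have h3 : P (Nat.findGreatest P B + 1) := by
    refine ⟨insert z Y, by rw [Finset.card_insert_of_notMem hzY, hY], ?_, ?_⟩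
    · intro y hy
      rcases Finset.mem_insert.1 hy with rfl | hy
      exacts [hz, h1 y hy]
    · intro c hc c' hc' hne
      rcases Finset.mem_insert.1 hc with rfl | hc2
      · rcases Finset.mem_insert.1 hc' with rfl | hc3
        · exact absurd rfl hne
        · exact (hcon c' hc3).le
      · rcases Finset.mem_insert.1 hc' with rfl | hc3
        · rw [norm_sub_rev]; exact (hcon c hc2).le
        · exact h2 c hc2 c' hc3 hne
  have := Nat.le_findGreatest (hbd _ h3) h3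
  omega

variable {d : ℕ}

theorem frost_nhd {q : ℕ} (ν : Measure (Euc d)) (c : Euc d) {δ : ℝ} (hδ : 0 < δ)
    (hsupp : ν (closedBall c δ)ᶜ = 0)
    (hF : ∀ (i : ℕ) z, ν (closedBall z (δ / 2 ^ (i + 1))) ≤ (2 ^ (4 * q * i))⁻¹)
    (s1 : Euc d) (V : Submodule ℝ (Euc d)) (hV : Module.finrank ℝ V ≤ q) (i : ℕ) :
    ν {s | infDist (s - s1) V < δ / 2 ^ (i + 2)} ≤ (25 * 2 ^ i) ^ q * (2 ^ (4 * q * i))⁻¹ := by
  set r := δ / 2 ^ (i + 2) with hr
  have hr0 : 0 < r := by positivity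
  have hrδ : r ≤ δ / 4 := by
    rw [hr]
    apply div_le_div_of_nonneg_left hδ.le (by norm_num)
    rw [pow_add]
    have : (1 : ℝ) ≤ 2 ^ i := one_le_pow₀ (by norm_num)
    linarith
  rw [← measure_inter_conull hsupp]
  rcases ({s | infDist (s - s1) V < r} ∩ closedBall c δ).eq_empty_or_nonempty with h | ⟨s0, h0, h0'⟩
  · simp [h]
  obtain ⟨v0, hv0, hd0⟩ := (infDist_lt_iff ⟨0, V.zero_mem⟩).1 h0
  obtain ⟨Y, hY1, hY2, hY3⟩ := exists_net (⟨v0, hv0⟩ : V) (r := 5 / 2 * δ) (by positivity) hr0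
  have hc := card_le_of_sep Y _ hr0 (by positivity) hY1 hY2
  have hc2 : (Y.card : ℝ≥0∞) ≤ (25 * 2 ^ i) ^ q := by
    have h1 : (1 : ℝ) ≤ 2 ^ i := one_le_pow₀ (by norm_num)
    have h2 : 1 + 2 * (5 / 2 * δ) / r ≤ 25 * 2 ^ i := by
      have : 2 * (5 / 2 * δ) / r = 20 * 2 ^ i := by rw [hr]; field_simp; ring
      rw [this]; linarith
    have h3 : (Y.card : ℝ) ≤ (25 * 2 ^ i) ^ q :=
      hc.trans ((pow_le_pow_left₀ (by positivity) h2 _).trans
        (pow_le_pow_right₀ (by linarith) hV))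
    exact_mod_cast h3
  have hsub : {s | infDist (s - s1) V < r} ∩ closedBall c δ ⊆
      ⋃ y ∈ Y, closedBall (s1 + (y : Euc d)) (δ / 2 ^ (i + 1)) := by
    rintro s ⟨h1, h1'⟩
    obtain ⟨v, hv, hd⟩ := (infDist_lt_iff ⟨0, V.zero_mem⟩).1 h1
    rw [mem_closedBall, dist_eq_norm] at h0' h1'
    rw [dist_eq_norm] at hd hd0
    obtain ⟨y, hy, hyv⟩ := hY3 ⟨v, hv⟩ (by
      change ‖v - v0‖ ≤ _
      have : v - v0 = -(s - s1 - v) + (s0 - s1 - v0) + (s - c) - (s0 - c) := by abel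
      rw [this]
      have a1 := norm_sub_le (-(s - s1 - v) + (s0 - s1 - v0) + (s - c)) (s0 - c)
      have a2 := norm_add_le (-(s - s1 - v) + (s0 - s1 - v0)) (s - c)
      have a3 := norm_add_le (-(s - s1 - v)) (s0 - s1 - v0)
      rw [norm_neg] at a3
      linarith)
    simp only [mem_iUnion]
    refine ⟨y, hy, ?_⟩
    rw [mem_closedBall, dist_eq_norm]
    change ‖v - y‖ ≤ r at hyv
    have : s - (s1 + y) = (s - s1 - v) + (v - y) := by abel
    rw [this]
    have a1 := norm_add_le (s - s1 - v) (v - y)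
    have : δ / 2 ^ (i + 1) = 2 * r := by rw [hr]; field_simp; ring
    linarith
  calc _ ≤ ν (⋃ y ∈ Y, closedBall (s1 + (y : Euc d)) (δ / 2 ^ (i + 1))) := measure_mono hsub
    _ ≤ ∑ y ∈ Y, ν (closedBall (s1 + (y : Euc d)) (δ / 2 ^ (i + 1))) :=
        measure_biUnion_finset_le _ _
    _ ≤ ∑ _y ∈ Y, (2 ^ (4 * q * i))⁻¹ := Finset.sum_le_sum fun y _ => hF i _
    _ ≤ _ := by rw [Finset.sum_const, nsmul_eq_mul]; exact mul_le_mul_left hc2 _

theorem le_mul_of_le_sq {m a b : ℝ≥0∞} (h1 : m ≤ a ^ 2) (h2 : m ≤ b ^ 2) : m ≤ a * b := by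
  rcases le_total a b with h | h
  · exact h1.trans (by rw [sq]; exact mul_le_mul_right h _)
  · exact h2.trans (by rw [sq]; exact mul_le_mul_left h _)

theorem inv_ofReal_le_tsum {D δ : ℝ} (hD : 0 ≤ D) (hδ : 0 < δ) (q : ℕ) :
    (ENNReal.ofReal D)⁻¹ ^ q ≤ (4 * (ENNReal.ofReal δ)⁻¹) ^ q +
      ∑' i : ℕ, if D < δ / 2 ^ (i + 2) then (8 * 2 ^ i * (ENNReal.ofReal δ)⁻¹) ^ q else 0 := by
  have key : ∀ (x : ℝ) (n : ℕ), 0 < n → δ / n ≤ x →
      (ENNReal.ofReal x)⁻¹ ≤ n * (ENNReal.ofReal δ)⁻¹ := by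
    intro x n hn hx
    have hn' : (0 : ℝ) < n := by exact_mod_cast hn
    calc (ENNReal.ofReal x)⁻¹ ≤ (ENNReal.ofReal (δ / n))⁻¹ :=
          ENNReal.inv_le_inv.2 (ENNReal.ofReal_le_ofReal hx)
      _ = _ := by
          rw [ENNReal.ofReal_div_of_pos hn', ENNReal.ofReal_natCast, ENNReal.inv_div
            (Or.inl (by simp)) (Or.inl (by simpa using hn.ne')), div_eq_mul_inv]
  by_cases h1 : δ / 4 ≤ D
  · exact le_add_right (pow_le_pow_left' (by simpa using key D 4 (by norm_num) (by simpa)) q)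
  refine le_add_left ?_
  rcases eq_or_lt_of_le hD with h0 | h0
  · refine le_top.trans (le_of_eq (Eq.symm (top_le_iff.1 ?_)))
    rw [← ENNReal.tsum_const_eq_top_of_ne_zero (α := ℕ) (c := (8 * (ENNReal.ofReal δ)⁻¹) ^ q)
      (pow_ne_zero _ (by simp))]
    refine ENNReal.tsum_le_tsum fun i => ?_
    rw [if_pos (by rw [← h0]; positivity)]
    refine pow_le_pow_left' (mul_le_mul_left ?_ _) q
    exact le_mul_of_one_le_right' (one_le_pow₀ (by norm_num))
  · obtain ⟨i, hi1, hi2⟩ := exists_nat_pow_near (x := δ / 4 / D) (y := 2)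
      (by rw [le_div_iff₀ h0]; linarith) (by norm_num)
    by_cases hlt : D < δ / 2 ^ (i + 2)
    · refine le_trans ?_ (ENNReal.le_tsum i)
      rw [if_pos hlt]
      refine pow_le_pow_left' ?_ q
      have := key D (8 * 2 ^ i) (by positivity) (by
        rw [div_lt_iff₀ h0] at hi2
        push_cast
        rw [div_le_iff₀ (by positivity)]
        rw [pow_succ] at hi2
        linarith)
      simpa using this
    · have hi0 : i ≠ 0 := by
        rintro rfl
        apply hlt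
        norm_num
        linarith
      obtain ⟨j, rfl⟩ := Nat.exists_eq_succ_of_ne_zero hi0
      refine le_trans ?_ (ENNReal.le_tsum j)
      rw [if_pos]
      · refine pow_le_pow_left' ?_ q
        have := key D (8 * 2 ^ j) (by positivity) (by
          push_cast
          refine le_trans (le_of_eq ?_) (not_lt.1 hlt)
          rw [Nat.succ_eq_add_one]; ring)
        simpa using this
      · rw [le_div_iff₀ h0] at hi1
        rw [lt_div_iff₀ (by positivity)]
        have : (0 : ℝ) < 2 ^ j := by positivity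
        simp only [pow_succ] at hi1 ⊢
        nlinarith

theorem frost_energy {q : ℕ} (hq : 2 ≤ q) (ν : Measure (Euc d)) (c : Euc d) {δ : ℝ} (hδ : 0 < δ)
    (hsupp : ν (closedBall c δ)ᶜ = 0)
    (hF : ∀ (i : ℕ) z, ν (closedBall z (δ / 2 ^ (i + 1))) ≤ (2 ^ (4 * q * i))⁻¹)
    {sb : ℝ≥0∞} (hsb : sb ≤ 1) (hb : ν univ ≤ sb ^ 2) (s1 : Euc d) (vs : List (Euc d))
    (hvs : vs.length ≤ q) :
    ∫⁻ s, idist (s - s1) vs ^ q ∂ν ≤ sb * (128 * (ENNReal.ofReal δ)⁻¹) ^ q := by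
  classical
  set V := Submodule.span ℝ {w | w ∈ vs} with hV
  have hVq : Module.finrank ℝ V ≤ q := by
    have : {w | w ∈ vs} = (vs.toFinset : Set (Euc d)) := by ext; simp
    rw [hV, this]
    exact (finrank_span_finset_le_card _).trans ((List.toFinset_card_le _).trans hvs)
  set u := (ENNReal.ofReal δ)⁻¹ with hu
  set A : ℕ → Set (Euc d) := fun i => {s | infDist (s - s1) V < δ / 2 ^ (i + 2)} with hA
  have hAm : ∀ i, MeasurableSet (A i) := fun i =>
    measurableSet_lt ((continuous_infDist_pt _).comp (by fun_prop)).measurable measurable_const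
  have hAi : ∀ i, ν (A i) ≤ sb * (5 ^ q * (2 ^ (q * i))⁻¹ * 2⁻¹ ^ i) := by
    intro i
    refine le_mul_of_le_sq ((measure_mono (subset_univ _)).trans hb)
      ((frost_nhd ν c hδ hsupp hF s1 V hVq i).trans ?_)
    have e1 : (2 : ℝ≥0∞) ^ (4 * q * i) = 2 ^ (q * i) * 2 ^ (3 * q * i) := by
      rw [← pow_add]; congr 1; ring
    have e2 : ((25 : ℝ≥0∞) * 2 ^ i) ^ q * (2 ^ (4 * q * i))⁻¹ = 25 ^ q * (2 ^ (3 * q * i))⁻¹ := by
      rw [e1, ENNReal.mul_inv (by simp) (by simp), mul_pow, ← pow_mul, mul_comm i q, mul_assoc,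
        ← mul_assoc (2 ^ (q * i)), ENNReal.mul_inv_cancel (by simp) (by simp), one_mul]
    have e3 : ((5 : ℝ≥0∞) ^ q * (2 ^ (q * i))⁻¹ * 2⁻¹ ^ i) ^ 2 =
        25 ^ q * (2 ^ (2 * (q * i + i)))⁻¹ := by
      rw [ENNReal.inv_pow, ENNReal.inv_pow, mul_assoc, ← pow_add, mul_pow, ← pow_mul, ← pow_mul,
        mul_comm q 2, pow_mul, mul_comm _ 2]
      norm_num
    rw [e2, e3]
    refine mul_le_mul_right (ENNReal.inv_le_inv.2 (pow_le_pow_right₀ (by norm_num) ?_)) _
    nlinarith [Nat.zero_le i]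
  calc _ ≤ ∫⁻ s, ((4 * u) ^ q + ∑' i : ℕ, (A i).indicator (fun _ => (8 * 2 ^ i * u) ^ q) s) ∂ν := by
        refine lintegral_mono fun s => ?_
        simpa [idist, hA, indicator] using inv_ofReal_le_tsum
          (infDist_nonneg (x := s - s1) (s := V)) hδ q
    _ = (4 * u) ^ q * ν univ + ∑' i : ℕ, (8 * 2 ^ i * u) ^ q * ν (A i) := by
        rw [lintegral_add_left measurable_const, lintegral_const,
          lintegral_tsum fun i => (measurable_const.indicator (hAm i)).aemeasurable]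
        simp_rw [lintegral_indicator_const (hAm _)]
    _ ≤ (40 * u) ^ q * sb + ∑' i : ℕ, (40 * u) ^ q * sb * 2⁻¹ ^ i := by
        refine add_le_add ?_ (ENNReal.tsum_le_tsum fun i => ?_)
        · refine mul_le_mul' (pow_le_pow_left' (mul_le_mul_left (by norm_num) _) q) (hb.trans ?_)
          rw [sq]; exact mul_le_of_le_one_left' hsb
        · refine (mul_le_mul_right (hAi i) _).trans (le_of_eq ?_)
          have : (2 : ℝ≥0∞) ^ (q * i) * (2 ^ (q * i))⁻¹ = 1 :=
            ENNReal.mul_inv_cancel (by simp) (by simp)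
          calc _ = (8 * 5 * u) ^ q * sb * 2⁻¹ ^ i * (2 ^ (q * i) * (2 ^ (q * i))⁻¹) := by
                simp only [mul_pow, ← pow_mul]; rw [mul_comm i q]; ring
            _ = _ := by rw [this]; norm_num
    _ = 3 * (40 * u) ^ q * sb := by
        rw [ENNReal.tsum_mul_left, ENNReal.tsum_geometric, ENNReal.one_sub_inv_two, inv_inv]; ring
    _ ≤ _ := by
        rw [mul_comm]
        refine mul_le_mul_right ?_ _
        have : (3 : ℝ≥0∞) ≤ 3 ^ q := le_self_pow₀ (by norm_num) (by omega)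
        calc 3 * (40 * u) ^ q ≤ 3 ^ q * (40 * u) ^ q := mul_le_mul_left this _
          _ = (120 * u) ^ q := by rw [← mul_pow, ← mul_assoc]; norm_num
          _ ≤ _ := pow_le_pow_left' (mul_le_mul_left (by norm_num) _) q

end Vale.Agent.P309
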