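import Mathlib

/-!
Gaussian estimates: small-box probabilities and an exponential moment.
-/

namespace Vale.Agent.P309

open MeasureTheory ProbabilityTheory Set
open scoped ENNReal RealInnerProductSpace

/-- Euclidean space. -/
abbrev Euc (d : ℕ) := EuclideanSpace ℝ (Fin d)

variable {d : ℕ}

theorem map_inner_gauss (v : Euc d) :
    (stdGaussian (Euc d)).map (fun x => ⟪x, v⟫) = gaussianReal 0 (‖v‖ ^ 2).toNNReal := by
  have h := IsGaussian.map_eq_gaussianReal (μ := stdGaussian (Euc d)) (innerSL ℝ v)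
  rw [integral_strongDual_stdGaussian, variance_dual_stdGaussian, innerSL_apply_norm] at h
  rw [← h]
  congr 1
  funext x
  simp [real_inner_comm]

theorem gaussianReal_le (s : Set ℝ) : gaussianReal 0 1 s ≤ 2⁻¹ * volume s := by
  rw [gaussianReal_apply 0 one_ne_zero]
  have : ∀ x, gaussianPDF 0 1 x ≤ 2⁻¹ := by
    intro x
    rw [gaussianPDF, gaussianPDFReal]
    have h1 : Real.exp (-(x - 0) ^ 2 / (2 * (1 : NNReal))) ≤ 1 := by
      rw [Real.exp_le_one_iff]
      apply div_nonpos_of_nonpos_of_nonneg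
      · simpa using sq_nonneg x
      · simp
    have h2 : (2 : ℝ) ≤ √(2 * Real.pi * (1 : NNReal)) := by
      apply Real.le_sqrt_of_sq_le
      have := Real.pi_gt_three
      simp; linarith
    have h3 : (√(2 * Real.pi * (1 : NNReal)))⁻¹ ≤ 2⁻¹ := inv_anti₀ (by norm_num) h2
    calc ENNReal.ofReal _ ≤ ENNReal.ofReal 2⁻¹ := by
          apply ENNReal.ofReal_le_ofReal
          calc _ ≤ 2⁻¹ * 1 := mul_le_mul h3 h1 (Real.exp_pos _).le (by norm_num)
            _ = _ := mul_one _
      _ = 2⁻¹ := by rw [ENNReal.ofReal_inv_of_pos (by norm_num)]; simp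
  calc ∫⁻ x in s, gaussianPDF 0 1 x ≤ ∫⁻ _ in s, 2⁻¹ := lintegral_mono this
    _ = _ := by simp

theorem gauss_slab (A : Set (Euc d)) (hA : MeasurableSet A) (e w : Euc d) (he : ‖e‖ = 1)
    (hw : ⟪e, w⟫ = 0) (hinv : ∀ x, ∀ t : ℝ, x ∈ A → x - t • e ∈ A) {δ a : ℝ} (hδ : 0 < δ) :
    stdGaussian (Euc d) (A ∩ {x | |⟪x, w + δ • e⟫| ≤ a}) ≤
      stdGaussian (Euc d) A * (ENNReal.ofReal a * (ENNReal.ofReal δ)⁻¹) := by
  set γ := stdGaussian (Euc d) with hγ
  let P : Euc d →L[ℝ] Euc d := ContinuousLinearMap.id ℝ _ - (innerSL ℝ e).smulRight e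
  have hP : ∀ x, P x = x - ⟪e, x⟫ • e := fun x => by simp [P]
  let L : Euc d →L[ℝ] Euc d × ℝ := P.prod (innerSL ℝ e)
  have hG : HasGaussianLaw (fun x => (P x, ⟪e, x⟫)) γ :=
    (IsGaussian.hasGaussianLaw_id (μ := γ)).map_fun L
  have hee : ⟪e, e⟫ = (1 : ℝ) := by rw [real_inner_self_eq_norm_sq, he]; norm_num
  have hind : IndepFun (fun x => P x) (fun x => ⟪e, x⟫) γ := by
    refine hG.indepFun_of_covariance_inner fun x y => ?_
    have h1 : (fun ω => ⟪x, P ω⟫) = fun ω => ⟪P x, ω⟫ := by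
      funext ω
      simp only [hP, inner_sub_right, inner_sub_left, real_inner_smul_right, real_inner_smul_left]
      rw [real_inner_comm x e]; ring
    have h2 : (fun ω : Euc d => ⟪y, ⟪e, ω⟫⟫) = fun ω => ⟪y • e, ω⟫ := by
      funext ω
      simp [real_inner_smul_left, mul_comm]
    rw [h1, h2, ← covarianceBilin_apply_eq_cov IsGaussian.memLp_two_id, hγ,
      covarianceBilin_stdGaussian]
    change ⟪P x, y • e⟫ = 0
    rw [hP, real_inner_smul_right, inner_sub_left, real_inner_smul_left, hee, real_inner_comm x e]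
    simp
  have hm1 : Measurable fun x => P x := P.continuous.measurable
  have hm2 : Measurable fun x : Euc d => ⟪e, x⟫ := by fun_prop
  rw [indepFun_iff_map_prod_eq_prod_map_map hm1.aemeasurable hm2.aemeasurable] at hind
  have hlaw : γ.map (fun x => ⟪e, x⟫) = gaussianReal 0 1 := by
    have := map_inner_gauss e
    rw [he] at this
    simpa [real_inner_comm] using this
  set S : Set (Euc d × ℝ) := {p | p.1 ∈ A ∧ |⟪p.1, w⟫ + δ * p.2| ≤ a} with hS
  have hSm : MeasurableSet S :=
    (measurable_fst hA).inter (measurableSet_le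
      (f := fun p : Euc d × ℝ => |⟪p.1, w⟫ + δ * p.2|) (by fun_prop) measurable_const)
  have hsub : A ∩ {x | |⟪x, w + δ • e⟫| ≤ a} ⊆ (fun x => (P x, ⟪e, x⟫)) ⁻¹' S := by
    rintro x ⟨hx, hx2⟩
    refine ⟨by simp only [hP]; exact hinv x _ hx, ?_⟩
    simp only [mem_setOf_eq, inner_add_right, real_inner_smul_right] at hx2
    simp only [hP, inner_sub_left, real_inner_smul_left, hw]
    rw [real_inner_comm x e]
    simpa using hx2
  have hPA : γ.map (fun x => P x) A = γ A := by
    rw [Measure.map_apply hm1 hA]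
    congr 1
    ext x
    simp only [mem_preimage, hP]
    constructor
    · intro h; simpa using hinv _ (-⟪e, x⟫) h
    · exact hinv x _
  calc γ _ ≤ γ ((fun x => (P x, ⟪e, x⟫)) ⁻¹' S) := measure_mono hsub
    _ = (γ.map fun x => (P x, ⟪e, x⟫)) S := (Measure.map_apply (hm1.prodMk hm2) hSm).symm
    _ = ∫⁻ y, gaussianReal 0 1 (Prod.mk y ⁻¹' S) ∂(γ.map fun x => P x) := by
        rw [hind, hlaw, Measure.prod_apply hSm]
    _ ≤ ∫⁻ y, A.indicator (fun _ => ENNReal.ofReal a * (ENNReal.ofReal δ)⁻¹) y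
          ∂(γ.map fun x => P x) := by
        refine lintegral_mono fun y => ?_
        by_cases hy : y ∈ A
        · rw [indicator_of_mem hy]
          refine (gaussianReal_le _).trans ?_
          have : Prod.mk y ⁻¹' S ⊆ Icc ((-a - ⟪y, w⟫) / δ) ((a - ⟪y, w⟫) / δ) := by
            intro u hu
            have := abs_le.1 hu.2
            constructor
            · rw [div_le_iff₀ hδ]; linarith [this.1]
            · rw [le_div_iff₀ hδ]; linarith [this.2]
          refine (mul_le_mul_right (measure_mono this) _).trans ?_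
          rw [Real.volume_Icc]
          have h2 : (a - ⟪y, w⟫) / δ - (-a - ⟪y, w⟫) / δ = 2 * (a * δ⁻¹) := by field_simp; ring
          rw [h2, ENNReal.ofReal_mul (by norm_num), ← mul_assoc, mul_comm a,
            ENNReal.ofReal_mul (inv_pos.2 hδ).le, ENNReal.ofReal_inv_of_pos hδ]
          simp only [ENNReal.ofReal_ofNat]
          rw [ENNReal.inv_mul_cancel (by norm_num) (by norm_num), one_mul, mul_comm]
        · have : Prod.mk y ⁻¹' S = ∅ := by
            ext u; simp [hS, hy]
          rw [this]; simp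
    _ = _ := by rw [lintegral_indicator_const hA, hPA, mul_comm]

/-- Inverse distance from `v` to the span of a list. -/
noncomputable def idist (v : Euc d) (vs : List (Euc d)) : ℝ≥0∞ :=
  (ENNReal.ofReal (Metric.infDist v (Submodule.span ℝ {w | w ∈ vs})))⁻¹

/-- The box of a list of directions. -/
def box (a : ℝ) (vs : List (Euc d)) : Set (Euc d) := {x | ∀ v ∈ vs, |⟪x, v⟫| ≤ a}

theorem measurableSet_box (a : ℝ) (vs : List (Euc d)) : MeasurableSet (box a vs) := by
  have : box a vs = ⋂ v ∈ {w | w ∈ vs}, {x : Euc d | |⟪x, v⟫| ≤ a} := by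
    ext x; simp [box]
  rw [this]
  exact MeasurableSet.biInter (vs.finite_toSet).countable fun v _ =>
    measurableSet_le (by fun_prop) measurable_const

theorem gauss_box_cons {a : ℝ} (ha : 0 < a) (v : Euc d) (vs : List (Euc d)) :
    stdGaussian (Euc d) (box a (v :: vs)) ≤
      stdGaussian (Euc d) (box a vs) * (ENNReal.ofReal a * idist v vs) := by
  set V := Submodule.span ℝ {w | w ∈ vs} with hV
  have hbox : box a (v :: vs) = box a vs ∩ {x | |⟪x, v⟫| ≤ a} := by
    ext x; simp [box, and_comm]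
  set r := v - V.starProjection v with hr
  have hdist : Metric.infDist v V = ‖r‖ := by
    rw [hr, Submodule.starProjection_minimal, Metric.infDist_eq_iInf]
    simp_rw [dist_eq_norm]
    rfl
  have hrV : ∀ u ∈ V, ⟪r, u⟫ = 0 := fun u hu =>
    Submodule.inner_left_of_mem_orthogonal hu (V.sub_starProjection_mem_orthogonal v)
  rcases eq_or_lt_of_le (norm_nonneg r) with h0 | hpos
  · have : idist v vs = ⊤ := by simp [idist, ← hV, hdist, ← h0]
    rw [this, ENNReal.mul_top (by simpa using ha), hbox]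
    rcases eq_or_ne (stdGaussian (Euc d) (box a vs)) 0 with h | h
    · exact (measure_mono inter_subset_left).trans (by simp [h])
    · rw [ENNReal.mul_top h]; exact le_top
  · have hv : v = V.starProjection v + ‖r‖ • (‖r‖⁻¹ • r) := by
      rw [smul_smul, mul_inv_cancel₀ hpos.ne', one_smul, hr]; abel
    have := gauss_slab (box a vs) (measurableSet_box a vs) (‖r‖⁻¹ • r) (V.starProjection v)
      (by rw [norm_smul, norm_inv, norm_norm, inv_mul_cancel₀ hpos.ne'])
      (by rw [real_inner_smul_left, hrV _ (V.starProjection_apply_mem v), mul_zero])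
      (fun x t hx u hu => by
        rw [inner_sub_left, real_inner_smul_left, real_inner_smul_left,
          hrV u (Submodule.subset_span hu)]
        simpa using hx u hu) (a := a) hpos
    rw [← hv] at this
    rw [hbox, idist, ← hV, hdist]
    exact this

theorem gauss_exp_abs (v : Euc d) {δ : ℝ} (hδ : 0 < δ) (hv : ‖v‖ ≤ δ) :
    ∫⁻ x, ENNReal.ofReal (Real.exp (|⟪x, v⟫| / δ)) ∂stdGaussian (Euc d) ≤ 4 := by
  have key : ∀ t : ℝ, |t| = δ⁻¹ →
      ∫⁻ x, ENNReal.ofReal (Real.exp (t * ⟪x, v⟫)) ∂stdGaussian (Euc d) ≤ 2 := by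
    intro t ht
    have h1 : ∫⁻ x, ENNReal.ofReal (Real.exp (t * ⟪x, v⟫)) ∂stdGaussian (Euc d) =
        ∫⁻ u, ENNReal.ofReal (Real.exp (t * u)) ∂gaussianReal 0 (‖v‖ ^ 2).toNNReal := by
      rw [← map_inner_gauss, lintegral_map (by fun_prop) (by fun_prop)]
    rw [h1, ← ofReal_integral_eq_lintegral_ofReal (integrable_exp_mul_gaussianReal t)
      (Filter.Eventually.of_forall fun u => (Real.exp_pos _).le)]
    have h2 := congrFun (mgf_id_gaussianReal (μ := 0) (v := (‖v‖ ^ 2).toNNReal)) t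
    simp only [mgf, id] at h2
    rw [h2]
    have h3 : (0 : ℝ) * t + ((‖v‖ ^ 2).toNNReal : ℝ) * t ^ 2 / 2 ≤ 1 / 2 := by
      rw [Real.coe_toNNReal _ (sq_nonneg _), ← sq_abs t, ht]
      have : ‖v‖ * δ⁻¹ ≤ 1 := by rw [← div_eq_mul_inv, div_le_one hδ]; exact hv
      have h0 : 0 ≤ ‖v‖ * δ⁻¹ := by positivity
      nlinarith
    have h4 : Real.exp (1 / 2) ≤ 2 := by
      have := Real.exp_one_lt_d9
      have h5 : Real.exp (1 / 2) * Real.exp (1 / 2) = Real.exp 1 := by
        rw [← Real.exp_add]; norm_num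
      nlinarith [Real.exp_pos (1 / 2)]
    calc ENNReal.ofReal _ ≤ ENNReal.ofReal 2 :=
          ENNReal.ofReal_le_ofReal ((Real.exp_le_exp.2 h3).trans h4)
      _ = 2 := by simp
  calc _ ≤ ∫⁻ x, (ENNReal.ofReal (Real.exp (δ⁻¹ * ⟪x, v⟫)) +
        ENNReal.ofReal (Real.exp (-δ⁻¹ * ⟪x, v⟫))) ∂stdGaussian (Euc d) := by
        refine lintegral_mono fun x => ?_
        rcases abs_cases ⟪x, v⟫ with h | h
        · rw [h.1, div_eq_inv_mul]; exact le_self_add
        · rw [h.1, div_eq_inv_mul, mul_neg, ← neg_mul]; exact le_add_self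
    _ ≤ 2 + 2 := by
        rw [lintegral_add_left (by fun_prop)]
        exact add_le_add (key _ (abs_of_pos (inv_pos.2 hδ)))
          (key _ (by rw [abs_neg, abs_of_pos (inv_pos.2 hδ)]))
    _ = 4 := by norm_num

theorem lintegral_exp_neg_abs (c : ℝ) {δ : ℝ} (hδ : 0 < δ) :
    ∫⁻ y : ℝ, ENNReal.ofReal (Real.exp (-(|y - c| / δ))) ≤ ENNReal.ofReal (2 * δ) := by
  rw [lintegral_sub_right_eq_self (fun y : ℝ => ENNReal.ofReal (Real.exp (-(|y| / δ)))) c]
  have hint : Integrable fun y : ℝ => Real.exp (-δ⁻¹ * |y|) := by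
    apply Integrable.of_integral_ne_zero
    rw [integral_comp_abs (f := fun x => Real.exp (-δ⁻¹ * x)),
      integral_exp_mul_Ioi (by simpa using hδ)]
    simpa using hδ.ne'
  have heq : (fun y : ℝ => ENNReal.ofReal (Real.exp (-(|y| / δ)))) =
      fun y => ENNReal.ofReal (Real.exp (-δ⁻¹ * |y|)) := by
    funext y; congr 2; ring
  rw [heq, ← ofReal_integral_eq_lintegral_ofReal hint
    (Filter.Eventually.of_forall fun u => (Real.exp_pos _).le),
    integral_comp_abs (f := fun x => Real.exp (-δ⁻¹ * x)),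
    integral_exp_mul_Ioi (by simpa using hδ)]
  apply le_of_eq
  congr 1
  simp

end Vale.Agent.P309
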