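import Vale.Agent.P309.Frost

/-!
One window of samples, localized at one scale.
-/

namespace Vale.Agent.P309

open MeasureTheory ProbabilityTheory Set Filter Metric
open scoped ENNReal RealInnerProductSpace Topology

variable {d : ℕ}

/-- The typical region for rows and labels. -/
def typ (q n : ℕ) (c : Euc d) (δ : ℝ) : Set ((Fin q → Euc d) × (Fin q → ℝ)) :=
  {p | ∑ i, |p.2 i - ⟪p.1 i, c⟫| / δ ≤ n}

theorem measurableSet_typ (q n : ℕ) (c : Euc d) (δ : ℝ) : MeasurableSet (typ q n c δ) :=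
  measurableSet_le (by fun_prop) measurable_const

theorem ofReal_exp_sum {q : ℕ} (f : Fin q → ℝ) :
    ENNReal.ofReal (Real.exp (∑ i, f i)) = ∏ i, ENNReal.ofReal (Real.exp (f i)) := by
  rw [Real.exp_sum, ENNReal.ofReal_prod_of_nonneg fun i _ => (Real.exp_pos _).le]

theorem typ_tail (q n : ℕ) (c s : Euc d) {δ : ℝ} (hδ : 0 < δ) (hs : ‖s - c‖ ≤ δ) :
    ∫⁻ X, (typ q n c δ)ᶜ.indicator 1 (X, ev X s) ∂rows d q ≤ (2 ^ n)⁻¹ * 4 ^ q := by
  calc _ ≤ ∫⁻ X, (2 ^ n)⁻¹ * ∏ i, ENNReal.ofReal (Real.exp (|⟪X i, s - c⟫| / δ)) ∂rows d q := by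
        refine lintegral_mono fun X => ?_
        by_cases h : (X, ev X s) ∈ (typ q n c δ)ᶜ
        · rw [indicator_of_mem h, ← ofReal_exp_sum, Pi.one_apply]
          simp only [typ, mem_compl_iff, mem_setOf_eq, not_le, ev, ← inner_sub_right] at h
          have h2 : (2 : ℝ≥0∞) ^ n ≤ ENNReal.ofReal (Real.exp (∑ i, |⟪X i, s - c⟫| / δ)) := by
            have : (2 : ℝ) ^ n ≤ Real.exp n := by
              rw [← mul_one (n : ℝ), Real.exp_nat_mul]
              exact pow_le_pow_left₀ (by norm_num) (by linarith [Real.add_one_le_exp 1]) n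
            calc (2 : ℝ≥0∞) ^ n = ENNReal.ofReal (2 ^ n) := by
                  rw [ENNReal.ofReal_pow (by norm_num)]; simp
              _ ≤ _ := ENNReal.ofReal_le_ofReal (this.trans (Real.exp_le_exp.2 h.le))
          calc (1 : ℝ≥0∞) = (2 ^ n)⁻¹ * 2 ^ n :=
                (ENNReal.inv_mul_cancel (by simp) (by simp)).symm
            _ ≤ _ := mul_le_mul_right h2 _
        · rw [indicator_of_notMem h]; exact zero_le
    _ ≤ _ := by
        rw [lintegral_const_mul _ (Finset.measurable_prod _ fun i _ => by fun_prop),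
          lintegral_pi_prod (stdGaussian (Euc d))
            (fun _ x => ENNReal.ofReal (Real.exp (|⟪x, s - c⟫| / δ))) fun i => by fun_prop]
        refine mul_le_mul_right ?_ _
        rw [Finset.prod_const, Finset.card_univ, Fintype.card_fin]
        exact pow_le_pow_left' (gauss_exp_abs _ hδ hs) q

theorem typ_vol (q n : ℕ) (c : Euc d) {δ : ℝ} (hδ : 0 < δ) :
    (rows d q).prod volume (typ q n c δ) ≤ 4 ^ n * (2 * ENNReal.ofReal δ) ^ q := by
  rw [Measure.prod_apply (measurableSet_typ q n c δ)]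
  calc _ ≤ ∫⁻ _X, 4 ^ n * (2 * ENNReal.ofReal δ) ^ q ∂rows d q := by
        refine lintegral_mono fun X => ?_
        rw [← lintegral_indicator_one (measurable_prodMk_left (measurableSet_typ q n c δ))]
        calc _ ≤ ∫⁻ Y : Fin q → ℝ, 4 ^ n *
              ∏ i, ENNReal.ofReal (Real.exp (-(|Y i - ⟪X i, c⟫| / δ))) := by
              refine lintegral_mono fun Y => ?_
              by_cases h : Y ∈ Prod.mk X ⁻¹' typ q n c δ
              · rw [indicator_of_mem h, ← ofReal_exp_sum, Pi.one_apply]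
                simp only [typ, mem_preimage, mem_setOf_eq] at h
                have h4 : Real.exp n ≤ (4 : ℝ) ^ n := by
                  rw [← mul_one (n : ℝ), Real.exp_nat_mul]
                  exact pow_le_pow_left₀ (Real.exp_pos _).le
                    (by linarith [Real.exp_one_lt_d9]) n
                have h5 : (4 : ℝ≥0∞) ^ n = ENNReal.ofReal (4 ^ n) := by
                  rw [ENNReal.ofReal_pow (by norm_num)]; simp
                rw [h5, ← ENNReal.ofReal_mul (by positivity), ENNReal.one_le_ofReal,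
                  Finset.sum_neg_distrib]
                calc (1 : ℝ) ≤ Real.exp (n + -∑ i, |Y i - ⟪X i, c⟫| / δ) :=
                      Real.one_le_exp (by linarith)
                  _ ≤ _ := by rw [Real.exp_add]; gcongr
              · rw [indicator_of_notMem h]; exact zero_le
          _ ≤ _ := by
              rw [lintegral_const_mul _ (Finset.measurable_prod _ fun i _ => by fun_prop),
                volume_pi, lintegral_pi_prod volume
                  (fun i y => ENNReal.ofReal (Real.exp (-(|y - ⟪X i, c⟫| / δ))))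
                  fun i => by fun_prop]
              refine mul_le_mul_right ?_ _
              calc _ ≤ ∏ _i : Fin q, 2 * ENNReal.ofReal δ := by
                    refine Finset.prod_le_prod' fun i _ => (lintegral_exp_neg_abs _ hδ).trans ?_
                    rw [ENNReal.ofReal_mul (by norm_num)]; simp
                _ = _ := by simp
    _ = _ := by simp

theorem measurable_win {q : ℕ} {g : (Fin q → Euc d) × (Fin q → ℝ) → ℝ≥0∞} (hg : Measurable g) :
    Measurable fun s => ∫⁻ X, g (X, ev X s) ∂rows d q :=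
  Measurable.lintegral_prod_right' (hg.comp measurable_ev)

theorem two_pow_inv_mul {m n r : ℕ} (h : r + n ≤ m) :
    ((2 : ℝ≥0∞) ^ m)⁻¹ * 2 ^ n ≤ (2 ^ r)⁻¹ := by
  obtain ⟨t, rfl⟩ := Nat.exists_eq_add_of_le h
  rw [show r + n + t = (r + t) + n by ring, pow_add, ENNReal.mul_inv (by simp) (by simp), mul_assoc,
    ENNReal.inv_mul_cancel (by simp) (by simp), mul_one]
  exact ENNReal.inv_le_inv.2 (pow_le_pow_right₀ (by norm_num) (by omega))

theorem local_norm {q a y : ℕ} (hq : 2 ≤ q) (ν : Measure (Euc d)) (c : Euc d) {δ : ℝ} (hδ : 0 < δ)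
    (hsupp : ν (closedBall c δ)ᶜ = 0) (h1 : ν univ ≤ 1)
    (hF : ∀ (i : ℕ) z, ν (closedBall z (δ / 2 ^ (i + 1))) ≤ (2 ^ (4 * q * i))⁻¹)
    {Ω : Type} [Fintype Ω] (hΩ : (Fintype.card Ω : ℝ≥0∞) ≤ 2 ^ (a * q * q))
    (g : Ω → (Fin q → Euc d) × (Fin q → ℝ) → ℝ≥0∞) (hg : ∀ ω, Measurable (g ω))
    (hg1 : ∀ p, ∑ ω, g ω p ≤ 1) (B : Ω → Set (Euc d))
    (hB : ∀ ω, ν (B ω) ≤ (2 ^ ((a + 3 * y + 12) * q))⁻¹ ^ 2) :
    ∑ ω, ∫⁻ s in B ω, ∫⁻ X, g ω (X, ev X s) ∂rows d q ∂ν ≤ 3 * (2 ^ (y * q))⁻¹ := by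
  haveI : IsFiniteMeasure ν := ⟨h1.trans_lt ENNReal.one_lt_top⟩
  set n := (y + 2) * q with hn
  set R := typ q n c δ with hR
  have hRm : MeasurableSet R := measurableSet_typ q n c δ
  set w := ENNReal.ofReal δ with hw
  have hw0 : w ≠ 0 := by simpa [hw] using hδ
  have hwt : w ≠ ⊤ := ENNReal.ofReal_ne_top
  set sb : ℝ≥0∞ := (2 ^ ((a + 3 * y + 12) * q))⁻¹ with hsb
  set z : ℝ≥0∞ := (2 ^ ((3 * y + 5) * q))⁻¹ * w⁻¹ ^ q with hz
  have hz0 : z ≠ 0 := mul_ne_zero (by simp) (pow_ne_zero _ (by simpa using hwt))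
  have hzt : z ≠ ⊤ := ENNReal.mul_ne_top (by simp) (ENNReal.pow_ne_top (by simpa using hw0))
  have hsb1 : sb ≤ 1 := ENNReal.inv_le_one.2 (one_le_pow₀ (by norm_num))
  have hgle : ∀ ω p, g ω p ≤ 1 := fun ω p =>
    (Finset.single_le_sum (f := fun ω => g ω p) (fun _ _ => zero_le) (Finset.mem_univ ω)).trans
      (hg1 p)
  have hsplit : ∀ ω p, g ω p = R.indicator (g ω) p + Rᶜ.indicator (g ω) p := fun ω p => by
    by_cases hp : p ∈ R <;> simp [hp]
  have hA : ∀ ω, ∫⁻ s in B ω, ∫⁻ X, R.indicator (g ω) (X, ev X s) ∂rows d q ∂ν ≤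
      z * ∫⁻ p, R.indicator (g ω) p ∂(rows d q).prod volume +
        sb ^ 2 * (sb * (128 * w⁻¹) ^ q) ^ q / z ^ q := by
    intro ω
    have hb : ν.restrict (B ω) univ ≤ sb ^ 2 := by
      rw [Measure.restrict_apply_univ]; exact hB ω
    have := drury (k := q) (l := q) (ν.restrict (B ω)) (I := sb * (128 * w⁻¹) ^ q) hz0 hzt
      (fun s1 vs hvs => frost_energy hq _ c hδ
        (le_antisymm ((Measure.restrict_le_self _).trans hsupp.le) zero_le)
        (fun i z => (Measure.restrict_le_self _).trans (hF i z)) hsb1 hb s1 vs hvs.le)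
      (R.indicator (g ω)) ((hg ω).indicator hRm)
      (fun p => (indicator_le_self _ _ p).trans (hgle ω p))
    refine this.trans (add_le_add le_rfl ?_)
    gcongr
  have hT : ∑ ω, ∫⁻ s in B ω, ∫⁻ X, Rᶜ.indicator (g ω) (X, ev X s) ∂rows d q ∂ν ≤
      (2 ^ (y * q))⁻¹ := by
    calc _ ≤ ∑ ω, ∫⁻ s, ∫⁻ X, Rᶜ.indicator (g ω) (X, ev X s) ∂rows d q ∂ν :=
          Finset.sum_le_sum fun ω _ => setLIntegral_le_lintegral _ _
      _ = ∫⁻ s, ∫⁻ X, ∑ ω, Rᶜ.indicator (g ω) (X, ev X s) ∂rows d q ∂ν := by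
          rw [← lintegral_finset_sum _ fun ω _ => measurable_win ((hg ω).indicator hRm.compl)]
          refine lintegral_congr fun s => ?_
          rw [lintegral_finset_sum _ fun ω _ => by
            exact ((hg ω).indicator hRm.compl).comp
              (measurable_ev.comp measurable_prodMk_left)]
      _ ≤ ∫⁻ _s, (2 ^ n)⁻¹ * 4 ^ q ∂ν := by
          refine lintegral_mono_ae ?_
          filter_upwards [show ∀ᵐ s ∂ν, s ∈ closedBall c δ from hsupp] with s hs
          refine le_trans (lintegral_mono fun X => ?_)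
            (typ_tail q n c s hδ (by simpa [dist_eq_norm] using hs))
          by_cases hp : (X, ev X s) ∈ Rᶜ
          · rw [← hR]
            simpa [indicator_of_mem hp] using hg1 _
          · simp [indicator_of_notMem hp]
      _ ≤ (2 ^ n)⁻¹ * 2 ^ (2 * q) := by
          rw [lintegral_const, pow_mul 2 2 q]
          norm_num
          exact mul_le_of_le_one_right' h1
      _ ≤ _ := two_pow_inv_mul (by rw [hn]; ring_nf; omega)
  have hV : z * ∑ ω, ∫⁻ p, R.indicator (g ω) p ∂(rows d q).prod volume ≤ (2 ^ (y * q))⁻¹ := by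
    have : ∑ ω, ∫⁻ p, R.indicator (g ω) p ∂(rows d q).prod volume ≤ 4 ^ n * (2 * w) ^ q := by
      rw [← lintegral_finset_sum _ fun ω _ => (hg ω).indicator hRm]
      refine le_trans ?_ (typ_vol q n c hδ)
      rw [← lintegral_indicator_one hRm]
      refine lintegral_mono fun p => ?_
      by_cases hp : p ∈ R
      · simpa [indicator_of_mem hp] using hg1 _
      · simp [indicator_of_notMem hp]
    refine (mul_le_mul_right this _).trans ?_
    calc z * (4 ^ n * (2 * w) ^ q)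
        = (2 ^ ((3 * y + 5) * q))⁻¹ * 2 ^ (2 * n + q) * (w⁻¹ * w) ^ q := by
          rw [hz, pow_add, pow_mul 2 2 n, mul_pow, mul_pow]; norm_num; ring
      _ ≤ _ := by
          rw [ENNReal.inv_mul_cancel hw0 hwt, one_pow, mul_one]
          exact two_pow_inv_mul (by rw [hn]; ring_nf; omega)
  have hC : (Fintype.card Ω : ℝ≥0∞) * (sb ^ 2 * (sb * (128 * w⁻¹) ^ q) ^ q / z ^ q) ≤
      (2 ^ (y * q))⁻¹ := by
    have e1 : sb * (128 * w⁻¹) ^ q ≤ (2 ^ (a * q))⁻¹ * z := by
      have : sb * 2 ^ (7 * q) ≤ (2 ^ (a * q + (3 * y + 5) * q))⁻¹ :=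
        two_pow_inv_mul (by ring_nf; omega)
      rw [pow_add, ENNReal.mul_inv (by simp) (by simp)] at this
      calc sb * (128 * w⁻¹) ^ q = sb * 2 ^ (7 * q) * w⁻¹ ^ q := by
            rw [mul_pow, pow_mul]; norm_num; ring
        _ ≤ (2 ^ (a * q))⁻¹ * (2 ^ ((3 * y + 5) * q))⁻¹ * w⁻¹ ^ q := mul_le_mul_left this _
        _ = _ := by rw [hz]; ring
    have e2 : (sb * (128 * w⁻¹) ^ q) ^ q / z ^ q ≤ (2 ^ (a * q * q))⁻¹ := by
      rw [ENNReal.div_le_iff (pow_ne_zero _ hz0) (ENNReal.pow_ne_top hzt)]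
      refine (pow_le_pow_left' e1 q).trans (le_of_eq ?_)
      rw [mul_pow, ← ENNReal.inv_pow, ← pow_mul]
    have e3 : sb ^ 2 ≤ (2 ^ (y * q))⁻¹ := by
      rw [sq]
      refine (mul_le_of_le_one_left' hsb1).trans ?_
      exact ENNReal.inv_le_inv.2 (pow_le_pow_right₀ (by norm_num) (by ring_nf; omega))
    rw [mul_div_assoc]
    calc _ ≤ (2 : ℝ≥0∞) ^ (a * q * q) * ((2 ^ (y * q))⁻¹ * (2 ^ (a * q * q))⁻¹) := by gcongr
      _ = _ := by
          rw [mul_comm, mul_assoc, ENNReal.inv_mul_cancel (by simp) (by simp), mul_one]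
  calc _ = ∑ ω, (∫⁻ s in B ω, ∫⁻ X, R.indicator (g ω) (X, ev X s) ∂rows d q ∂ν +
          ∫⁻ s in B ω, ∫⁻ X, Rᶜ.indicator (g ω) (X, ev X s) ∂rows d q ∂ν) := by
        refine Finset.sum_congr rfl fun ω _ => ?_
        rw [← lintegral_add_left (measurable_win ((hg ω).indicator hRm))]
        refine lintegral_congr fun s => ?_
        rw [← lintegral_add_left (by
          exact ((hg ω).indicator hRm).comp (measurable_ev.comp measurable_prodMk_left))]
        exact lintegral_congr fun X => hsplit ω _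
    _ ≤ ((2 ^ (y * q))⁻¹ + (2 ^ (y * q))⁻¹) + (2 ^ (y * q))⁻¹ := by
        rw [Finset.sum_add_distrib]
        refine add_le_add ((Finset.sum_le_sum fun ω _ => hA ω).trans ?_) hT
        rw [Finset.sum_add_distrib, ← Finset.mul_sum, Finset.sum_const, nsmul_eq_mul,
          Finset.card_univ]
        exact add_le_add hV hC
    _ = _ := by ring

theorem local_scaled {q a y : ℕ} (hq : 2 ≤ q) (ν : Measure (Euc d)) (c : Euc d) {δ : ℝ}
    (hδ : 0 < δ) {W : ℝ≥0∞} (hW : W ≠ ⊤)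
    (hsupp : ν (closedBall c δ)ᶜ = 0) (h1 : ν univ ≤ W)
    (hF : ∀ (i : ℕ) z, ν (closedBall z (δ / 2 ^ (i + 1))) ≤ W * (2 ^ (4 * q * i))⁻¹)
    {Ω : Type} [Fintype Ω] (hΩ : (Fintype.card Ω : ℝ≥0∞) ≤ 2 ^ (a * q * q))
    (g : Ω → (Fin q → Euc d) × (Fin q → ℝ) → ℝ≥0∞) (hg : ∀ ω, Measurable (g ω))
    (hg1 : ∀ p, ∑ ω, g ω p ≤ 1) (B : Ω → Set (Euc d))
    (hB : ∀ ω, ν (B ω) ≤ W * (2 ^ ((a + 3 * y + 12) * q))⁻¹ ^ 2) :
    ∑ ω, ∫⁻ s in B ω, ∫⁻ X, g ω (X, ev X s) ∂rows d q ∂ν ≤ W * (3 * (2 ^ (y * q))⁻¹) := by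
  rcases eq_or_ne W 0 with rfl | hW0
  · have : ν = 0 := Measure.measure_univ_eq_zero.1 (le_antisymm h1 zero_le)
    simp [this]
  have key : ∀ {x t : ℝ≥0∞}, x ≤ W * t → W⁻¹ * x ≤ t := fun {x t} h =>
    (mul_le_mul_right h _).trans (by
      rw [← mul_assoc, ENNReal.inv_mul_cancel hW0 hW, one_mul])
  have := local_norm (a := a) (y := y) hq (W⁻¹ • ν) c hδ (by simp [hsupp])
    (by simpa using key (t := 1) (by simpa using h1)) (fun i z => by simpa using key (hF i z))
    hΩ g hg hg1 B (fun ω => by simpa using key (hB ω))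
  simp only [Measure.restrict_smul, lintegral_smul_measure, smul_eq_mul, ← Finset.mul_sum] at this
  calc _ = W * (W⁻¹ * ∑ ω, ∫⁻ s in B ω, ∫⁻ X, g ω (X, ev X s) ∂rows d q ∂ν) := by
        rw [← mul_assoc, ENNReal.mul_inv_cancel hW0 hW, one_mul]
    _ ≤ _ := mul_le_mul_right this _

end Vale.Agent.P309
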