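import Vale.Agent.P309.Sphere

/-!
Reduction of the learner model to finite chains.
-/

namespace Vale.Agent.P309

open MeasureTheory ProbabilityTheory Set Filter Metric
open scoped ENNReal RealInnerProductSpace Topology

variable {d : ℕ} {St R : Type} [MeasurableSpace St] [MeasurableSpace R]

theorem Learner.measurable_run [Fintype St] [DiscreteMeasurableSpace St] (L : Learner d St R)
    (k : ℕ) : ∀ t, Measurable fun p : (St × Bool) × R × (Fin k → Euc d × ℝ) =>
      L.run p.2.1 k t p.1 p.2.2 := by
  induction k with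
  | zero =>
    intro t
    exact measurable_from_prod_countable_right fun c => (L.measurable_out t c.1).comp measurable_fst
  | succ k ih =>
    intro t
    refine measurable_from_prod_countable_right fun c => ?_
    simp only [Learner.run]
    split_ifs
    · exact (L.measurable_out t c.1).comp measurable_fst
    · refine (ih (t + 1)).comp (f := fun p : R × (Fin (k + 1) → Euc d × ℝ) =>
        (L.step p.1 t c.1 (p.2 0), p.1, Fin.tail p.2)) ?_
      refine ((L.measurable_step t c.1).comp (f := fun p : R × (Fin (k + 1) → Euc d × ℝ) =>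
        (p.1, p.2 0)) (by fun_prop)).prodMk (measurable_fst.prodMk ?_)
      exact measurable_pi_lambda _ fun i => (measurable_pi_apply _).comp measurable_snd

theorem dist_le_of_arccos {u v : Euc d} (hu : ‖u‖ = 1) (hv : ‖v‖ = 1) {ε : ℝ}
    (h : Real.arccos ⟪u, v⟫ ≤ ε) : dist u v ≤ ε := by
  have h1 : |⟪u, v⟫| ≤ 1 := by simpa [hu, hv] using abs_real_inner_le_norm u v
  have h2 := Real.cos_arccos (abs_le.1 h1).1 (abs_le.1 h1).2
  have h3 := Real.one_sub_sq_div_two_le_cos (x := Real.arccos ⟪u, v⟫)
  have h4 := Real.arccos_nonneg ⟪u, v⟫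
  rw [dist_eq_norm]
  refine abs_le_of_sq_le_sq' ?_ (h4.trans h) |>.2
  rw [norm_sub_sq_real, hu, hv]
  nlinarith

/-- The success event for a fixed seed. -/
def Learner.good (L : Learner d St R) (T : ℕ) (ε : ℝ) (r : R) : Set (Euc d × (Fin T → Euc d)) :=
  {p | dist (L.run r T 0 (L.init r) fun i => (p.2 i, ⟪p.2 i, p.1⟫)).1 p.1 ≤ ε}

theorem Learner.measurableSet_good [Fintype St] [DiscreteMeasurableSpace St] (L : Learner d St R)
    (T : ℕ) (ε : ℝ) (r : R) : MeasurableSet (L.good T ε r) := by
  refine measurableSet_le (Measurable.dist (measurable_subtype_coe.comp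
    ((L.measurable_run T 0).comp (f := fun p : Euc d × (Fin T → Euc d) =>
      (L.init r, r, fun i => (p.2 i, ⟪p.2 i, p.1⟫))) ?_)) measurable_fst) measurable_const
  fun_prop

theorem Learner.success_le [Fintype St] [DiscreteMeasurableSpace St] (L : Learner d St R)
    (hd : 1 ≤ d) (ρ : Measure R) [IsProbabilityMeasure ρ] (T : ℕ) (ε : ℝ) {B : ℝ≥0∞}
    (h : ∀ r, (sig d).prod (rows d T) (L.good T ε r) ≤ B) : L.success ρ T ε ≤ B := by
  haveI := unif_prob hd
  rw [Learner.success, Measure.prod_apply]
  · refine (lintegral_mono fun r => le_trans ?_ (h r)).trans (by simp)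
    have : (sig d).prod (rows d T) = ((unifSphere d).prod (rows d T)).map
        (Prod.map Subtype.val id) := by
      rw [← Measure.map_prod_map _ _ measurable_subtype_coe measurable_id, Measure.map_id, sig]
    rw [this]
    refine le_trans (measure_mono ?_) (Measure.le_map_apply
      (measurable_subtype_coe.prodMap measurable_id).aemeasurable _)
    intro p hp
    exact dist_le_of_arccos (by simp) (by simp) hp
  · refine measurableSet_le (Real.continuous_arccos.measurable.comp (Measurable.inner
      (measurable_subtype_coe.comp ((L.measurable_run T 0).comp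
        (f := fun p : R × sphere (0 : Euc d) 1 × (Fin T → Euc d) =>
      (L.init p.1, p.1, fun i => (p.2.2 i, ⟪p.2.2 i, p.2.1.1⟫))) ?_)) (by fun_prop)))
      measurable_const
    have := L.measurable_init
    fun_prop

theorem Learner.few [Fintype St] [DiscreteMeasurableSpace St] (L : Learner d St R)
    (hd : 1 ≤ d) (ρ : Measure R) [IsProbabilityMeasure ρ] {T : ℕ} (hT : 5 * T ≤ d) {ε : ℝ}
    (hε : ε ≤ 2⁻¹) : L.success ρ T ε ≤ 19 / 30 := by
  haveI := sig_prob hd
  refine L.success_le hd ρ T ε fun r => ?_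
  rw [Measure.prod_apply_symm (L.measurableSet_good T ε r)]
  refine (lintegral_mono fun X => ?_).trans (by simp : ∫⁻ _X, (19 / 30 : ℝ≥0∞) ∂rows d T ≤ _)
  have := few_samples hd hT X (fun y => (L.run r T 0 (L.init r) fun i => (X i, y i)).1)
    (measurable_subtype_coe.comp ((L.measurable_run T 0).comp
      (f := fun y : Fin T → ℝ => (L.init r, r, fun i => (X i, y i))) (by fun_prop)))
  rw [← ENNReal.mul_le_mul_iff_right (a := 2) (by norm_num) (by finiteness)]
  refine le_trans (mul_le_mul_right (measure_mono fun s hs => ?_) _) (this.trans (le_of_eq ?_))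
  · exact le_trans hs hε
  · rw [← ENNReal.toReal_eq_toReal_iff' (by finiteness) (by finiteness),
      ENNReal.toReal_add (by finiteness) (by finiteness)]
    norm_num

/-- One step of the learner on the extended state space. -/
def Learner.nxt (L : Learner d St R) (r : R) (T t : ℕ) (ω : (St × Bool) × Fin (T + 1))
    (z : Euc d × ℝ) : (St × Bool) × Fin (T + 1) :=
  if h : t < T ∧ ¬ ω.1.2 = true then (L.step r t ω.1.1 z, ⟨t + 1, by omega⟩) else ω

open Classical in
/-- The transition weights of the learner. -/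
noncomputable def Learner.ker (L : Learner d St R) (r : R) (T t : ℕ)
    (ω ω' : (St × Bool) × Fin (T + 1)) (z : Euc d × ℝ) : ℝ≥0∞ :=
  if L.nxt r T t ω z = ω' then 1 else 0

open Classical in
/-- The law of a chain started at a fixed state. -/
noncomputable def fwd {Ω : Type} [Fintype Ω] (κ : ℕ → Ω → Ω → Euc d × ℝ → ℝ≥0∞) (ω₀ : Ω) :
    ℕ → Ω → Euc d → ℝ≥0∞
  | 0, ω, _ => if ω₀ = ω then 1 else 0
  | t + 1, ω', s => ∑ ω, fwd κ ω₀ t ω s * ∫⁻ x, κ t ω ω' (x, ⟪x, s⟫) ∂stdGaussian (Euc d)

theorem Learner.isChain [Fintype St] [DiscreteMeasurableSpace St] (L : Learner d St R) (r : R)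
    (T : ℕ) (ω₀ : (St × Bool) × Fin (T + 1)) : IsChain (L.ker r T) (fwd (L.ker r T) ω₀) := by
  classical
  refine ⟨fun t ω ω' => ?_, fun t ω z => by simp [Learner.ker], 
    ⟨fun ω => if ω₀ = ω then 1 else 0, ?_, fun ω s => by simp [fwd]⟩, fun _ _ _ => rfl⟩
  · refine Measurable.ite (measurableSet_eq_fun ?_ measurable_const) measurable_const
      measurable_const
    unfold Learner.nxt
    split_ifs
    · exact ((L.measurable_step t ω.1.1).comp measurable_prodMk_left).prodMk measurable_const
    · exact measurable_const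
  · simp

theorem Learner.fwd_add [Fintype St] (L : Learner d St R) (r : R)
    (T : ℕ) (ω₀ : (St × Bool) × Fin (T + 1)) (j : ℕ) :
    fwd (L.ker r T) ω₀ (T + j) = fwd (L.ker r T) ω₀ T := by
  classical
  induction j with
  | zero => rfl
  | succ j ih =>
    funext ω' s
    rw [← add_assoc, fwd, ih]
    simp [Learner.ker, Learner.nxt]

theorem Learner.comp_stop [Fintype St] (L : Learner d St R) (r : R) (T : ℕ)
    {ω : (St × Bool) × Fin (T + 1)} (h : ω.1.2 = true) (k : ℕ) :
    ∀ t p, 1 ≤ comp (L.ker r T) k t ω ω p := by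
  induction k with
  | zero => intro t p; simp [comp]
  | succ k ih =>
    intro t p
    rw [comp]
    refine le_trans ?_ (Finset.single_le_sum (fun _ _ => zero_le) (Finset.mem_univ ω))
    simpa [Learner.ker, Learner.nxt, h] using ih _ _

theorem Learner.comp_run [Fintype St] (L : Learner d St R) (r : R) (T : ℕ) (k : ℕ) :
    ∀ t (ht : t + k = T) (c : St × Bool) (p : (Fin k → Euc d) × (Fin k → ℝ)),
      ∃ ω', 1 ≤ comp (L.ker r T) k t (c, ⟨t, by omega⟩) ω' p ∧
        L.out r ω'.2 ω'.1.1 = L.run r k t c fun i => (p.1 i, p.2 i) := by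
  induction k with
  | zero => intro t ht c p; exact ⟨(c, ⟨t, by omega⟩), by simp [comp], rfl⟩
  | succ k ih =>
    intro t ht c p
    by_cases hc : c.2 = true
    · exact ⟨(c, ⟨t, by omega⟩), L.comp_stop r T hc _ _ _, by simp [Learner.run, hc]⟩
    · obtain ⟨ω', h1, h2⟩ := ih (t + 1) (by omega) (L.step r t c.1 (p.1 0, p.2 0))
        (Fin.tail p.1, Fin.tail p.2)
      refine ⟨ω', ?_, by rw [h2, Learner.run, if_neg hc]; rfl⟩
      rw [comp]
      refine le_trans ?_ (Finset.single_le_sum (fun _ _ => zero_le)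
        (Finset.mem_univ (L.step r t c.1 (p.1 0, p.2 0), ⟨t + 1, by omega⟩)))
      simpa [Learner.ker, Learner.nxt, hc, show t < T by omega] using h1

theorem Learner.good_le [Fintype St] [DiscreteMeasurableSpace St] (L : Learner d St R)
    (hd : 1 ≤ d) (T : ℕ) (ε : ℝ) (r : R) {n : ℕ} (hn : T ≤ n) :
    (sig d).prod (rows d T) (L.good T ε r) ≤ ∑ ω, ∫⁻ s, fwd (L.ker r T) (L.init r, 0) n ω s *
      Measure.dirac (L.out r ω.2 ω.1.1).1 (closedBall s ε) ∂sig d := by
  classical
  haveI := sig_prob hd
  have hc := L.isChain r T (L.init r, 0)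
  obtain ⟨j, rfl⟩ := Nat.exists_eq_add_of_le hn
  rw [L.fwd_add, Measure.prod_apply (L.measurableSet_good T ε r), ← lintegral_finset_sum _
    fun ω _ => (hc.measurable T ω).fun_mul (measurable_ball_measure _ ε)]
  refine lintegral_mono fun s => ?_
  have h1 := fun ω' => chain_comp hc.meas hc.succ T 0 ω' s
  simp only [zero_add, fwd, ite_mul, one_mul, zero_mul, Finset.sum_ite_eq, Finset.mem_univ,
    if_true] at h1
  have hm : ∀ ω', Measurable fun X : Fin T → Euc d =>
      comp (L.ker r T) T 0 (L.init r, 0) ω' (X, ev X s) :=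
    fun ω' => (measurable_comp hc.meas _ _ _ _).comp (measurable_ev.comp measurable_prodMk_left)
  simp_rw [h1, ← lintegral_mul_const _ (hm _)]
  rw [← lintegral_finset_sum _ fun ω _ => (hm ω).mul_const _, ← lintegral_indicator_one
    (measurable_prodMk_left (L.measurableSet_good T ε r))]
  refine lintegral_mono fun X => ?_
  refine indicator_apply_le' (fun hX => ?_) fun _ => zero_le
  obtain ⟨ω', h2, h3⟩ := L.comp_run r T T 0 (zero_add T) (L.init r) (X, ev X s)
  refine le_trans ?_ (Finset.single_le_sum (fun _ _ => zero_le) (Finset.mem_univ ω'))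
  rw [Measure.dirac_apply_of_mem, mul_one]
  · exact h2
  · rw [h3]; exact hX

theorem log_le_of_third {ε : ℝ} (hε : 0 < ε) {n m : ℕ}
    (h : (3⁻¹ : ℝ≥0∞) ≤ 2 ^ n * ENNReal.ofReal ε ^ m) : m * Real.log (1 / ε) ≤ n + 2 := by
  have h1 : (3⁻¹ : ℝ) ≤ 2 ^ n * ε ^ m := by
    have := ENNReal.toReal_mono (by finiteness) h
    simpa [hε.le] using this
  have h2 := Real.log_le_log (by norm_num) h1
  rw [Real.log_mul (by positivity) (by positivity), Real.log_pow, Real.log_pow, Real.log_inv] at h2
  have h3 : Real.log 3 ≤ 2 := by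
    have := Real.log_le_sub_one_of_pos (show (0 : ℝ) < 3 by norm_num); linarith
  have h4 : Real.log 2 ≤ 1 := by
    have := Real.log_le_sub_one_of_pos (show (0 : ℝ) < 2 by norm_num); linarith
  rw [one_div, Real.log_inv]
  have : (n : ℝ) * Real.log 2 ≤ n := mul_le_of_le_one_right (by positivity) h4
  linarith

theorem sq_le_two_pow (q : ℕ) : q * q ≤ 2 * 2 ^ q := by
  induction q with
  | zero => simp
  | succ q ih =>
    have := Nat.lt_two_pow_self (n := q)
    rw [pow_succ]
    nlinarith

theorem two_thirds : (2 / 3 : ℝ≥0∞) = 3⁻¹ + 3⁻¹ := by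
  rw [← two_mul, div_eq_mul_inv]

theorem Learner.tradeoff [Fintype St] [DiscreteMeasurableSpace St] (L : Learner d St R)
    (ρ : Measure R) [IsProbabilityMeasure ρ] {T M q a : ℕ} (hq : 2 ≤ q) (hd : 8 * q ≤ d)
    (hd' : d ≤ 16 * q) (hM : Fintype.card St ≤ 2 ^ M) (ha : M + 1 ≤ a * q * q) {ε : ℝ}
    (hε : 0 < ε) (hε' : ε ≤ 2⁻¹) (h : 2 / 3 ≤ L.success ρ T ε) :
    q * Real.log (1 / ε) ≤ (22 * a + 542) * T := by
  haveI := sig_prob (d := d) (by omega)
  have hT : d < 5 * T := by
    by_contra hT
    have := h.trans (L.few (by omega) ρ (by omega) hε')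
    rw [← ENNReal.toReal_le_toReal (by finiteness) (by finiteness)] at this
    norm_num at this
  have hcap := sig_cap (d := d) (q := q) (by omega) (by omega)
  have hcard : Fintype.card ((St × Bool) × Fin (T + 1)) ≤ 2 ^ (M + 1) * (T + 1) := by
    simp only [Fintype.card_prod, Fintype.card_bool, Fintype.card_fin, pow_succ]
    gcongr
  have ha1 : 1 ≤ a := by
    rcases Nat.eq_zero_or_pos a with rfl | h
    · simp at ha
    · exact h
  have hqT : (q : ℝ) * 8 ≤ 5 * T := by exact_mod_cast (by omega)
  have hT1 : (1 : ℝ) ≤ T := by exact_mod_cast (by omega)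
  have ha0 : (0 : ℝ) ≤ a := by positivity
  rcases le_or_gt (T + 1) (2 ^ q) with hc | hc
  · have hJ : T ≤ (T / q + 1) * q := by
      have := Nat.div_add_mod T q
      have := Nat.mod_lt T (show 0 < q by omega)
      nlinarith
    have h1 : L.success ρ T ε ≤ 3⁻¹ + 2 ^ ((22 * (a + 2) + 497) * (T / q + 1 + 2) * q) *
        ENNReal.ofReal ε ^ (3 * q) := by
      refine L.success_le (by omega) ρ T ε fun r => (L.good_le (by omega) T ε r hJ).trans ?_
      refine (L.isChain r T _).main hq hd' (sig d) sig_closedBall hcap (hcard.trans ?_) ?_ _ hε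
      · calc _ ≤ 2 ^ (M + 1) * 2 ^ q := by gcongr
          _ ≤ _ := by rw [← pow_add]; exact Nat.pow_le_pow_right (by norm_num) (by nlinarith)
      · have := Nat.div_le_self T q
        calc 6 * (T / q + 1) ≤ 2 ^ 3 * 2 ^ q := by omega
          _ ≤ _ := by rw [← pow_add]; exact Nat.pow_le_pow_right (by norm_num) (by nlinarith)
    have h2 := h.trans h1
    rw [two_thirds, ENNReal.add_le_add_iff_left (by simp)] at h2
    have h3 := log_le_of_third hε h2
    have h4 : (T / q + 1 + 2) * q ≤ 3 * T := by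
      have := Nat.div_mul_le_self T q
      nlinarith
    have h5 : (22 * (a + 2) + 497) * (T / q + 1 + 2) * q ≤ (22 * a + 541) * (3 * T) := by
      rw [mul_assoc]; exact Nat.mul_le_mul (by omega) h4
    have h6 : (((22 * (a + 2) + 497) * (T / q + 1 + 2) * q : ℕ) : ℝ) ≤ (22 * a + 541) * (3 * T) := by
      exact_mod_cast h5
    push_cast at h3 h6
    nlinarith
  · have h1 : L.success ρ T ε ≤ 2 ^ (M + 1 + T + 21 * q) * ENNReal.ofReal ε ^ (7 * q) := by
      refine L.success_le (by omega) ρ T ε fun r => (L.good_le (by omega) T ε r le_rfl).trans ?_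
      refine ((L.isChain r T _).count (sig d) hcap _ hε T).trans ?_
      have h2 : Fintype.card ((St × Bool) × Fin (T + 1)) ≤ 2 ^ (M + 1 + T) := by
        rw [pow_add]
        exact hcard.trans (Nat.mul_le_mul_left _ Nat.lt_two_pow_self)
      have h3 : (Fintype.card ((St × Bool) × Fin (T + 1)) : ℝ≥0∞) ≤ 2 ^ (M + 1 + T) := by
        exact_mod_cast h2
      refine (mul_le_mul_left h3 _).trans (le_of_eq ?_)
      rw [ENNReal.ofReal_mul (by norm_num), mul_pow, show ENNReal.ofReal 8 = 2 ^ 3 by norm_num,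
        ← pow_mul]
      ring
    have h2 := h.trans h1
    rw [two_thirds] at h2
    have h3 := log_le_of_third hε (le_self_add.trans h2)
    have h4 : M + 1 ≤ a * (2 * T) := by
      have := sq_le_two_pow q
      rw [mul_assoc] at ha
      exact ha.trans (Nat.mul_le_mul_left _ (by omega))
    have h5 : (M : ℝ) + 1 ≤ a * (2 * T) := by exact_mod_cast h4
    push_cast at h3
    nlinarith

end Vale.Agent.P309
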