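import Vale.Agent.P309.Defs
import Vale.Agent.P309.Chain

/-!
The uniform measure on the sphere: caps, invariance, and the few-sample bound.
-/

namespace Vale.Agent.P309

open MeasureTheory ProbabilityTheory Set Filter Metric
open scoped ENNReal RealInnerProductSpace Topology Pointwise

variable {d : ℕ}

/-- The uniform measure on the sphere, as a measure on the ambient space. -/
noncomputable def sig (d : ℕ) : Measure (Euc d) := (unifSphere d).map Subtype.val

theorem vol_ball_ne_zero : (volume : Measure (Euc d)) (ball 0 1) ≠ 0 :=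
  (measure_ball_pos _ _ one_pos).ne'

theorem unif_prob (hd : 1 ≤ d) : IsProbabilityMeasure (unifSphere d) := by
  constructor
  rw [unifSphere, Measure.smul_apply, smul_eq_mul, ENNReal.inv_mul_cancel]
  · rw [Measure.toSphere_apply_univ]
    refine mul_ne_zero ?_ vol_ball_ne_zero
    simp; omega
  · exact measure_ne_top _ _

theorem sig_prob (hd : 1 ≤ d) : IsProbabilityMeasure (sig d) := by
  haveI := unif_prob hd
  exact Measure.isProbabilityMeasure_map measurable_subtype_coe.aemeasurable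

theorem sig_apply (hd : 1 ≤ d) {A : Set (Euc d)} (hA : MeasurableSet A) :
    sig d A = (volume (ball (0 : Euc d) 1))⁻¹ * volume (Ioo (0 : ℝ) 1 • (sphere 0 1 ∩ A)) := by
  rw [sig, Measure.map_apply measurable_subtype_coe hA, unifSphere, Measure.smul_apply,
    Measure.toSphere_apply_univ, Measure.toSphere_apply' _ (measurable_subtype_coe hA),
    Subtype.image_preimage_coe, smul_eq_mul, finrank_euclideanSpace_fin,
    ENNReal.mul_inv (Or.inl (by simp; omega)) (Or.inl (by simp)), mul_comm ((d : ℝ≥0∞)⁻¹),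
    mul_assoc, ← mul_assoc ((d : ℝ≥0∞)⁻¹), ENNReal.inv_mul_cancel (by simp; omega) (by simp),
    one_mul]

theorem sig_supp : ∀ᵐ s ∂sig d, ‖s‖ = 1 := by
  rw [sig, ae_map_iff measurable_subtype_coe.aemeasurable
    (measurableSet_eq_fun (by fun_prop) measurable_const)]
  exact Eventually.of_forall fun s => by simpa using s.2

theorem sig_closedBall : sig d (closedBall 0 1)ᶜ = 0 := by
  have : ∀ᵐ s ∂sig d, s ∈ closedBall (0 : Euc d) 1 := by
    filter_upwards [sig_supp] with s hs
    simp [hs]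
  exact this

theorem sig_cap_center (hd : 1 ≤ d) {z : Euc d} (hz : ‖z‖ = 1) {r : ℝ} (hr : 0 < r) (hr1 : r ≤ 1) :
    sig d (closedBall z r) ≤ ENNReal.ofReal (4 * (2 * r) ^ (d - 1)) := by
  rw [sig_apply hd measurableSet_closedBall]
  set n := ⌈r⁻¹⌉₊ with hn
  have hn0 : (0 : ℝ) < n := by
    rw [hn]; exact_mod_cast Nat.ceil_pos.2 (by positivity)
  have hn1 : 1 ≤ n * r := by
    have := Nat.le_ceil r⁻¹
    calc (1 : ℝ) = r⁻¹ * r := by field_simp
      _ ≤ _ := by gcongr
  have hn2 : n * r ≤ 2 := by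
    have := (Nat.ceil_lt_add_one (show 0 ≤ r⁻¹ by positivity)).le
    calc (n : ℝ) * r ≤ (r⁻¹ + 1) * r := by gcongr
      _ = 1 + r := by field_simp
      _ ≤ 2 := by linarith
  have hsub : Ioo (0 : ℝ) 1 • (sphere (0 : Euc d) 1 ∩ closedBall z r) ⊆
      ⋃ k ∈ Finset.range n, closedBall (((k : ℝ) / n) • z) (2 * r) := by
    rintro _ ⟨t, ⟨ht0, ht1⟩, s, ⟨-, hs⟩, rfl⟩
    simp only [mem_iUnion, Finset.mem_range]
    refine ⟨⌊t * n⌋₊, ?_, ?_⟩
    · rw [Nat.floor_lt (by positivity)]; nlinarith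
    · have h1 := Nat.floor_le (show 0 ≤ t * n by positivity)
      have h2 := Nat.lt_floor_add_one (t * n)
      rw [mem_closedBall, dist_eq_norm] at hs ⊢
      have h3 : |t - ⌊t * n⌋₊ / n| ≤ r := by
        rw [abs_of_nonneg (by rw [sub_nonneg, div_le_iff₀ hn0]; exact h1), sub_le_iff_le_add,
          ← sub_le_iff_le_add', le_div_iff₀ hn0]
        nlinarith
      calc ‖t • s - ((⌊t * n⌋₊ : ℝ) / n) • z‖ = ‖t • (s - z) + (t - ⌊t * n⌋₊ / n) • z‖ := by
            congr 1; module
        _ ≤ ‖t • (s - z)‖ + ‖(t - ⌊t * n⌋₊ / n) • z‖ := norm_add_le _ _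
        _ ≤ r + r := by
            rw [norm_smul, norm_smul, hz, mul_one, Real.norm_eq_abs, Real.norm_eq_abs,
              abs_of_pos ht0]
            refine add_le_add ?_ h3
            nlinarith [norm_nonneg (s - z)]
        _ = 2 * r := by ring
  have hv := (measure_mono (μ := volume) hsub).trans (measure_biUnion_finset_le _ _)
  simp_rw [Measure.addHaar_closedBall volume _ (show 0 ≤ 2 * r by positivity),
    finrank_euclideanSpace_fin, Finset.sum_const, Finset.card_range, nsmul_eq_mul] at hv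
  refine (mul_le_mul_right hv _).trans ?_
  rw [mul_comm, mul_assoc, mul_assoc, ENNReal.mul_inv_cancel vol_ball_ne_zero
    measure_ball_lt_top.ne, mul_one, ← ENNReal.ofReal_natCast, ← ENNReal.ofReal_mul hn0.le]
  refine ENNReal.ofReal_le_ofReal ?_
  obtain ⟨e, rfl⟩ : ∃ e, d = e + 1 := ⟨d - 1, by omega⟩
  rw [pow_succ, Nat.add_sub_cancel]
  have : 0 ≤ (2 * r) ^ e := by positivity
  nlinarith

theorem sig_cap {q : ℕ} (hd : 3 ≤ d) (hq : 7 * q ≤ d - 1) (z : Euc d) (r : ℝ) (hr : 0 < r) :
    sig d (closedBall z r) ≤ ENNReal.ofReal (8 * r) ^ (7 * q) := by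
  haveI := sig_prob (d := d) (by omega)
  rcases le_total 1 (8 * r) with h | h
  · exact prob_le_one.trans (one_le_pow₀ (ENNReal.one_le_ofReal.2 h))
  by_cases hne : ∃ s ∈ closedBall z r, ‖s‖ = 1
  · obtain ⟨s, hs, hs1⟩ := hne
    have hsub : closedBall z r ⊆ closedBall s (2 * r) := by
      refine closedBall_subset_closedBall' ?_
      rw [mem_closedBall, dist_comm] at hs
      linarith
    refine ((measure_mono hsub).trans (sig_cap_center (by omega) hs1 (by positivity)
      (by linarith))).trans ?_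
    rw [← ENNReal.ofReal_pow (by positivity)]
    refine ENNReal.ofReal_le_ofReal ?_
    calc 4 * (2 * (2 * r)) ^ (d - 1) ≤ 2 ^ (d - 1) * (2 * (2 * r)) ^ (d - 1) := by
          gcongr
          calc (4 : ℝ) = 2 ^ 2 := by norm_num
            _ ≤ _ := pow_le_pow_right₀ (by norm_num) (by omega)
      _ = (8 * r) ^ (d - 1) := by rw [← mul_pow]; ring_nf
      _ ≤ _ := pow_le_pow_of_le_one (by positivity) h hq
  · refine le_trans (le_of_eq ?_) zero_le
    refine measure_mono_null ?_ (ae_iff.1 (sig_supp (d := d)))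
    intro s hs h1
    exact hne ⟨s, hs, h1⟩

theorem sig_preserving (hd : 1 ≤ d) (U : Euc d ≃ₗᵢ[ℝ] Euc d) :
    MeasurePreserving U (sig d) (sig d) := by
  refine ⟨U.continuous.measurable, Measure.ext fun A hA => ?_⟩
  rw [Measure.map_apply U.continuous.measurable hA, sig_apply hd hA,
    sig_apply hd (U.continuous.measurable hA)]
  congr 1
  rw [← U.measurePreserving.measure_preimage_emb U.toHomeomorph.measurableEmbedding
    (Ioo (0 : ℝ) 1 • (sphere 0 1 ∩ A))]
  congr 1
  ext x
  constructor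
  · rintro ⟨t, ht, s, ⟨hs1, hs⟩, rfl⟩
    exact ⟨t, ht, U s, ⟨by simpa using hs1, hs⟩, by simp⟩
  · rintro ⟨t, ht, s, ⟨hs1, hs⟩, h⟩
    refine ⟨t, ht, U.symm s, ⟨by simpa using hs1, by simpa using hs⟩, ?_⟩
    apply U.injective
    simpa using h

theorem sig_sq (hd : 1 ≤ d) {v : Euc d} (hv : ‖v‖ = 1) :
    d * ∫⁻ s, ENNReal.ofReal (⟪v, s⟫ ^ 2) ∂sig d = 1 := by
  haveI := sig_prob hd
  have hm : ∀ w : Euc d, Measurable fun s : Euc d => ENNReal.ofReal (⟪w, s⟫ ^ 2) := fun w => by
    fun_prop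
  set b := EuclideanSpace.basisFun (Fin d) ℝ
  have h1 : ∀ i, ∫⁻ s, ENNReal.ofReal (⟪v, s⟫ ^ 2) ∂sig d =
      ∫⁻ s, ENNReal.ofReal (⟪b i, s⟫ ^ 2) ∂sig d := by
    intro i
    have h := Submodule.reflection_sub (show ‖v‖ = ‖b i‖ by rw [hv, b.norm_eq_one])
    rw [← (sig_preserving hd (Submodule.reflection (ℝ ∙ (v - b i))ᗮ)).lintegral_comp (hm (b i))]
    refine lintegral_congr fun s => ?_
    generalize Submodule.reflection (ℝ ∙ (v - b i))ᗮ = U at h
    rw [← h, U.inner_map_map]
  calc _ = ∑ i, ∫⁻ s, ENNReal.ofReal (⟪b i, s⟫ ^ 2) ∂sig d := by simp [← h1]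
    _ = ∫⁻ s, 1 ∂sig d := by
      rw [← lintegral_finset_sum _ fun i _ => hm _]
      refine lintegral_congr_ae ?_
      filter_upwards [sig_supp] with s hs
      rw [← ENNReal.ofReal_sum_of_nonneg fun i _ => sq_nonneg _, b.sum_sq_inner_right, hs]
      simp
    _ = 1 := by simp

theorem few_samples {T : ℕ} (hd : 1 ≤ d) (hT : 5 * T ≤ d) (X : Fin T → Euc d)
    (f : (Fin T → ℝ) → Euc d) (hf : Measurable f) :
    2 * sig d {s | dist (f (ev X s)) s ≤ 2⁻¹} ≤ 1 + 4 / 15 := by
  haveI := sig_prob hd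
  set K := Submodule.span ℝ (Set.range X)
  have hE : MeasurableSet {s : Euc d | dist (f (ev X s)) s ≤ 2⁻¹} :=
    measurableSet_le ((hf.comp (measurable_pi_lambda _ fun i => by
      unfold ev; fun_prop)).dist measurable_id) measurable_const
  set E := {s : Euc d | dist (f (ev X s)) s ≤ 2⁻¹}
  have hU := sig_preserving hd K.reflection
  set b := stdOrthonormalBasis ℝ K
  have hk : Module.finrank ℝ K ≤ T := (finrank_range_le_card X).trans (by simp)
  have hB : sig d (E ∩ K.reflection ⁻¹' E) ≤ 4 / 15 := by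
    have hm : Measurable fun s : Euc d => ∑ i, ENNReal.ofReal (⟪(b i : Euc d), s⟫ ^ 2) := by
      fun_prop
    have h1 := mul_meas_ge_le_lintegral₀ (μ := sig d) hm.aemeasurable (3 / 4)
    rw [lintegral_finset_sum _ fun i _ => by fun_prop] at h1
    have h2 : ∑ i, ∫⁻ s, ENNReal.ofReal (⟪(b i : Euc d), s⟫ ^ 2) ∂sig d ≤ 5⁻¹ := by
      have h3 : ∀ i, ∫⁻ s, ENNReal.ofReal (⟪(b i : Euc d), s⟫ ^ 2) ∂sig d = (d : ℝ≥0∞)⁻¹ :=
        fun i => ENNReal.eq_inv_of_mul_eq_one_left (by
          rw [mul_comm]; exact sig_sq hd (b.norm_eq_one i))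
      simp only [h3, Finset.sum_const, Finset.card_univ, Fintype.card_fin, nsmul_eq_mul]
      rw [ENNReal.le_inv_iff_mul_le]
      have h4 : (5 * Module.finrank ℝ K : ℝ≥0∞) ≤ d := by exact_mod_cast (by omega)
      calc _ = (5 * Module.finrank ℝ K : ℝ≥0∞) * (d : ℝ≥0∞)⁻¹ := by ring
        _ ≤ d * (d : ℝ≥0∞)⁻¹ := mul_le_mul_left h4 _
        _ ≤ 1 := ENNReal.mul_inv_le_one _
    have h5 : sig d (E ∩ K.reflection ⁻¹' E) ≤
        sig d {s | 3 / 4 ≤ ∑ i, ENNReal.ofReal (⟪(b i : Euc d), s⟫ ^ 2)} := by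
      refine measure_mono_ae ?_
      filter_upwards [sig_supp] with s hs ⟨h6, h7⟩
      have h8 : ev X (K.reflection s) = ev X s := by
        funext i
        have : K.reflection (X i) = X i :=
          Submodule.reflection_mem_subspace_eq_self (Submodule.subset_span ⟨i, rfl⟩)
        simp only [ev]
        conv_lhs => rw [← this]
        exact K.reflection.inner_map_map _ _
      simp only [E, mem_preimage, mem_setOf_eq, h8] at h6 h7
      have h9 : dist s (K.reflection s) ≤ 1 := by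
        have := dist_triangle_left s (K.reflection s) (f (ev X s))
        linarith
      have h10 : ‖Kᗮ.starProjection s‖ ≤ 2⁻¹ := by
        have : s - K.reflection s = (2 : ℝ) • Kᗮ.starProjection s := by
          rw [Submodule.reflection_apply, Submodule.starProjection_orthogonal_val]; module
        rw [dist_eq_norm, this, norm_smul, Real.norm_two] at h9
        linarith
      have h11 := K.norm_sq_eq_add_norm_sq_starProjection s
      have h12 : ∑ i, ⟪(b i : Euc d), s⟫ ^ 2 = ‖K.starProjection s‖ ^ 2 := by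
        have := b.sum_sq_inner_right (K.orthogonalProjectionOnto s)
        simp only [Submodule.inner_orthogonalProjectionOnto_eq_of_mem_left] at this
        exact this
      show 3 / 4 ≤ ∑ i, ENNReal.ofReal (⟪(b i : Euc d), s⟫ ^ 2)
      rw [← ENNReal.ofReal_sum_of_nonneg fun i _ => sq_nonneg _, h12,
        show (3 / 4 : ℝ≥0∞) = ENNReal.ofReal (3 / 4) by
          rw [ENNReal.ofReal_div_of_pos (by norm_num)]; simp]
      refine ENNReal.ofReal_le_ofReal ?_
      nlinarith [norm_nonneg (Kᗮ.starProjection s)]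
    refine h5.trans ?_
    have h6 := h1.trans h2
    rw [← ENNReal.mul_le_mul_iff_right (a := 3 / 4) (by norm_num) (by finiteness)]
    refine h6.trans (le_of_eq ?_)
    rw [← ENNReal.toReal_eq_toReal_iff' (by finiteness) (by finiteness)]
    norm_num
  calc 2 * sig d E = sig d E + sig d (K.reflection ⁻¹' E) := by
        rw [hU.measure_preimage hE.nullMeasurableSet, two_mul]
    _ = _ := (measure_union_add_inter _ (hU.measurable hE)).symm
    _ ≤ _ := add_le_add prob_le_one hB

end Vale.Agent.P309
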