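import Vale.Agent.P309.Local

/-!
The multiscale potential and its growth over one window.
-/

namespace Vale.Agent.P309

open MeasureTheory ProbabilityTheory Set Filter Metric
open scoped ENNReal RealInnerProductSpace Topology

variable {d : ℕ}

/-- The radius at scale `t`. -/
noncomputable def rad (t : ℕ) : ℝ := 2 / 2 ^ t

theorem rad_pos (t : ℕ) : 0 < rad t := by unfold rad; positivity

/-- Local mass of a density. -/
noncomputable def mass (σ : Measure (Euc d)) (F : Euc d → ℝ≥0∞) (t : ℕ) (s : Euc d) : ℝ≥0∞ :=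
  ∫⁻ s' in closedBall s (rad t), F s' ∂σ

/-- The multiscale potential. -/
noncomputable def pot (σ : Measure (Euc d)) (q N : ℕ) (F : Euc d → ℝ≥0∞) (s : Euc d) : ℝ≥0∞ :=
  ∑ t ∈ Finset.range (N + 1), 2 ^ (4 * q * t) * mass σ F t s

theorem measurable_mass (σ : Measure (Euc d)) [SFinite σ] {F : Euc d → ℝ≥0∞} (hF : Measurable F)
    (t : ℕ) : Measurable (mass σ F t) := by
  have hm : MeasurableSet {p : Euc d × Euc d | dist p.2 p.1 ≤ rad t} :=
    measurableSet_le (by fun_prop) measurable_const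
  have : mass σ F t = fun s => ∫⁻ s', {p : Euc d × Euc d | dist p.2 p.1 ≤ rad t}.indicator
      (fun p => F p.2) (s, s') ∂σ := by
    funext s
    rw [mass, ← lintegral_indicator measurableSet_closedBall]
    rfl
  rw [this]
  exact ((hF.comp measurable_snd).indicator hm).lintegral_prod_right'

theorem measurable_pot (σ : Measure (Euc d)) [SFinite σ] (q N : ℕ) {F : Euc d → ℝ≥0∞}
    (hF : Measurable F) : Measurable (pot σ q N F) :=
  Finset.measurable_sum _ fun t _ => (measurable_mass σ hF t).const_mul _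

theorem pot_sum (σ : Measure (Euc d)) (q N : ℕ) {Ω : Type} [Fintype Ω] (F : Ω → Euc d → ℝ≥0∞)
    (hF : ∀ ω, Measurable (F ω)) (s : Euc d) :
    pot σ q N (fun s => ∑ ω, F ω s) s = ∑ ω, pot σ q N (F ω) s := by
  unfold pot mass
  rw [Finset.sum_comm]
  refine Finset.sum_congr rfl fun t _ => ?_
  rw [lintegral_finset_sum _ fun ω _ => hF ω, Finset.mul_sum]

theorem markov_bad (μ : Measure (Euc d)) {B Q : Set (Euc d)} (hB : MeasurableSet B) (hBQ : B ⊆ Q)
    {h : Euc d → ℝ≥0∞} (hh : Measurable h) {K W : ℝ≥0∞} (hK0 : K ≠ 0) (hKt : K ≠ ⊤)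
    (hfin : ∫⁻ s in Q, h s ∂μ ≠ ⊤) (hlt : ∀ s ∈ B, K * ∫⁻ s in Q, h s ∂μ < h s * W) :
    μ B ≤ W * K⁻¹ := by
  set A := ∫⁻ s in Q, h s ∂μ with hA
  have h1 : ∫⁻ s in B, h s ∂μ ≤ A := lintegral_mono_set hBQ
  rcases eq_or_ne A 0 with h0 | h0
  · have h2 : ∫⁻ s in B, h s ∂μ = 0 := le_antisymm (h1.trans h0.le) zero_le
    rw [lintegral_eq_zero_iff hh] at h2
    have h3 : ∀ᵐ s ∂μ.restrict B, False := by
      filter_upwards [h2, ae_restrict_mem hB] with s hs hsB
      have := hlt s hsB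
      rw [hs] at this
      simp at this
    have h4 : μ B = 0 := by simpa using h3
    simp [h4]
  · have h2 : K * A * μ B ≤ W * A := by
      calc K * A * μ B = ∫⁻ _s in B, K * A ∂μ := (setLIntegral_const _ _).symm
        _ ≤ ∫⁻ s in B, h s * W ∂μ := setLIntegral_mono' hB fun s hs => (hlt s hs).le
        _ = (∫⁻ s in B, h s ∂μ) * W := lintegral_mul_const _ hh
        _ ≤ _ := by rw [mul_comm]; exact mul_le_mul_right h1 _
    have h3 : K * μ B ≤ W := by
      rw [mul_right_comm] at h2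
      exact (ENNReal.mul_le_mul_iff_left h0 hfin).1 h2
    calc μ B = K * μ B * K⁻¹ := by
          rw [mul_right_comm, ENNReal.mul_inv_cancel hK0 hKt, one_mul]
      _ ≤ _ := mul_le_mul_left h3 _

theorem bad_scale {q a y : ℕ} (hq : 2 ≤ q) (σ : Measure (Euc d)) [IsFiniteMeasure σ]
    (hsupp : σ (closedBall 0 1)ᶜ = 0) {H : Euc d → ℝ≥0∞} (hH : Measurable H) (hH1 : ∀ s, H s ≤ 1)
    {Ω : Type} [Fintype Ω] (hΩ : (Fintype.card Ω : ℝ≥0∞) ≤ 2 ^ (a * q * q))
    (g : Ω → (Fin q → Euc d) × (Fin q → ℝ) → ℝ≥0∞) (hg : ∀ ω, Measurable (g ω))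
    (hg1 : ∀ p, ∑ ω, g ω p ≤ 1) (h : Ω → Euc d → ℝ≥0∞)
    (hh : ∀ ω s, h ω s = ∫⁻ X, g ω (X, ev X s) ∂rows d q) (t : ℕ) (G : Set (Euc d))
    (hG : MeasurableSet G)
    (hGt : ∀ s ∈ G, ∀ t', 2 ^ (4 * q * t') * mass σ H t' s ≤ 2 ^ (4 * q * t) * mass σ H t s)
    (B : Ω → Set (Euc d)) (hBm : ∀ ω, MeasurableSet (B ω)) (hBG : ∀ ω, B ω ⊆ G)
    (hB : ∀ ω, ∀ s ∈ B ω, (2 ^ ((a + 3 * y + 12) * q)) ^ 2 * mass σ (fun s => H s * h ω s) t s <
      h ω s * mass σ H t s) :
    ∑ ω, ∫⁻ s in B ω, H s * h ω s ∂σ ≤ 9 ^ d * (∫⁻ s, H s ∂σ) * (3 * (2 ^ (y * q))⁻¹) := by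
  classical
  set δ := rad t with hδd
  have hδ : 0 < δ := rad_pos t
  set μ := σ.withDensity H with hμ
  have hhm : ∀ ω, Measurable (h ω) := fun ω => by
    rw [show h ω = _ from funext (hh ω)]; exact measurable_win (hg ω)
  have hh1 : ∀ ω s, h ω s ≤ 1 := fun ω s => by
    rw [hh]
    calc _ ≤ ∫⁻ _X, 1 ∂rows d q := lintegral_mono fun X =>
          (Finset.single_le_sum (f := fun ω => g ω (X, ev X s)) (fun _ _ => zero_le)
            (Finset.mem_univ ω)).trans (hg1 _)
      _ = 1 := by simp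
  have hμu : μ univ = ∫⁻ s, H s ∂σ := by simp [hμ]
  have hμf : μ univ ≠ ⊤ := by
    rw [hμu]
    exact ne_top_of_le_ne_top (by simp) (lintegral_mono hH1)
  have hint : ∀ ω {A : Set (Euc d)}, MeasurableSet A →
      ∫⁻ s in A, h ω s ∂μ = ∫⁻ s in A, H s * h ω s ∂σ := fun ω A hA =>
    setLIntegral_withDensity_eq_setLIntegral_mul σ hH (hhm ω) hA
  have hmass : ∀ t' s, mass σ H t' s = μ (closedBall s (rad t')) := fun t' s =>
    (withDensity_apply _ measurableSet_closedBall).symm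
  obtain ⟨Y, hY1, hY2, hY3⟩ := exists_net (0 : Euc d) (r := 1) zero_le_one (half_pos hδ)
  have hloc : ∀ c ∈ Y, ∑ ω, ∫⁻ s in B ω ∩ closedBall c (δ / 2), H s * h ω s ∂σ ≤
      μ (closedBall c (2 * δ)) * (3 * (2 ^ (y * q))⁻¹) := by
    intro c _
    set Q := closedBall c (δ / 2) with hQ
    have hQm : MeasurableSet (G ∩ Q) := hG.inter measurableSet_closedBall
    have hW : ∀ s ∈ Q, μ (closedBall s δ) ≤ μ (closedBall c (2 * δ)) := fun s hs =>
      measure_mono (closedBall_subset_closedBall' (by rw [hQ, mem_closedBall] at hs; linarith))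
    have := local_scaled (a := a) (y := y) hq (μ.restrict (G ∩ Q)) c hδ
      (W := μ (closedBall c (2 * δ))) (ne_top_of_le_ne_top hμf (measure_mono (subset_univ _)))
      (by
        rw [Measure.restrict_apply measurableSet_closedBall.compl]
        refine measure_mono_null (fun s hs => ?_) measure_empty
        exact hs.1 (closedBall_subset_closedBall (by linarith) hs.2.2))
      (by
        rw [Measure.restrict_apply_univ]
        exact measure_mono fun s hs => closedBall_subset_closedBall (by linarith) hs.2)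
      (fun i z => by
        rw [Measure.restrict_apply measurableSet_closedBall]
        rcases (closedBall z (δ / 2 ^ (i + 1)) ∩ (G ∩ Q)).eq_empty_or_nonempty with
          h0 | ⟨s, hs1, hs2, hs3⟩
        · simp [h0]
        have e1 : closedBall z (δ / 2 ^ (i + 1)) ⊆ closedBall s (rad (t + i)) := by
          refine closedBall_subset_closedBall' ?_
          rw [mem_closedBall, dist_comm] at hs1
          have : rad (t + i) = 2 * (δ / 2 ^ (i + 1)) := by
            rw [hδd, rad, rad]; field_simp; ring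
          linarith
        have e2 := hGt s hs2 (t + i)
        rw [hmass, hmass, mul_add, pow_add, mul_assoc,
          ENNReal.mul_le_mul_iff_right (by simp) (by simp)] at e2
        refine (measure_mono (inter_subset_left.trans e1)).trans ?_
        calc μ (closedBall s (rad (t + i)))
            = 2 ^ (4 * q * i) * μ (closedBall s (rad (t + i))) * (2 ^ (4 * q * i))⁻¹ := by
              rw [mul_right_comm, ENNReal.mul_inv_cancel (by simp) (by simp), one_mul]
          _ ≤ _ := mul_le_mul_left (e2.trans (hW s hs3)) _)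
      hΩ g hg hg1 (fun ω => B ω ∩ Q) (fun ω => by
        refine (Measure.restrict_le_self _).trans ?_
        rw [← ENNReal.inv_pow]
        refine markov_bad μ ((hBm ω).inter measurableSet_closedBall) inter_subset_right (hhm ω)
          (by simp) (by simp) ?_ fun s hs => ?_
        · refine ne_top_of_le_ne_top hμf ?_
          calc _ ≤ ∫⁻ _s in Q, 1 ∂μ := lintegral_mono (hh1 ω)
            _ ≤ _ := by rw [setLIntegral_one]; exact measure_mono (subset_univ _)
        · refine lt_of_le_of_lt (mul_le_mul_right ?_ _) ((hB ω s hs.1).trans_le ?_)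
          · rw [hint ω measurableSet_closedBall]
            refine lintegral_mono_set (closedBall_subset_closedBall' ?_)
            have := hs.2
            rw [mem_closedBall, dist_comm] at this
            linarith
          · rw [hmass]; exact mul_le_mul_right (hW s hs.2) _)
    refine le_of_eq_of_le (Finset.sum_congr rfl fun ω _ => ?_) this
    have hm : MeasurableSet (B ω ∩ Q) := (hBm ω).inter measurableSet_closedBall
    rw [Measure.restrict_restrict hm, inter_eq_left.2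
      (inter_subset_inter_left _ (hBG ω)), ← hint ω hm]
    exact lintegral_congr (hh ω)
  have hcover : ∀ ω, ∫⁻ s in B ω, H s * h ω s ∂σ ≤
      ∑ c ∈ Y, ∫⁻ s in B ω ∩ closedBall c (δ / 2), H s * h ω s ∂σ := by
    intro ω
    rw [← lintegral_indicator (hBm ω)]
    simp_rw [← lintegral_indicator ((hBm ω).inter measurableSet_closedBall)]
    rw [← lintegral_finset_sum _ fun c _ =>
      (hH.fun_mul (hhm ω)).indicator ((hBm ω).inter measurableSet_closedBall)]
    refine lintegral_mono_ae ?_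
    filter_upwards [show ∀ᵐ s ∂σ, s ∈ closedBall 0 1 from hsupp] with s hs
    by_cases hsB : s ∈ B ω
    · obtain ⟨c, hc, hsc⟩ := hY3 s (by simpa using hs)
      refine le_trans (le_of_eq ?_) (Finset.single_le_sum (fun _ _ => zero_le) hc)
      rw [indicator_of_mem hsB, indicator_of_mem]
      exact ⟨hsB, by rwa [mem_closedBall, dist_eq_norm]⟩
    · rw [indicator_of_notMem hsB]; exact zero_le
  have hover : ∑ c ∈ Y, μ (closedBall c (2 * δ)) ≤ 9 ^ d * μ univ := by
    simp_rw [← lintegral_indicator_one (measurableSet_closedBall (x := _) (ε := 2 * δ))]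
    rw [← lintegral_finset_sum _ fun c _ => measurable_one.indicator measurableSet_closedBall,
      ← lintegral_const]
    refine lintegral_mono fun s => ?_
    have e1 := card_le_of_sep (Y.filter fun c => s ∈ closedBall c (2 * δ)) s (half_pos hδ)
      (R := 2 * δ) (by positivity)
      (fun c hc => by
        have := (Finset.mem_filter.1 hc).2
        rwa [mem_closedBall, dist_comm, dist_eq_norm] at this)
      (fun c hc c' hc' => hY2 c (Finset.mem_filter.1 hc).1 c' (Finset.mem_filter.1 hc').1)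
    have e2 : 1 + 2 * (2 * δ) / (δ / 2) = 9 := by field_simp; norm_num
    rw [e2, finrank_euclideanSpace, Fintype.card_fin] at e1
    have e3 : ((Y.filter fun c => s ∈ closedBall c (2 * δ)).card : ℝ≥0∞) ≤ 9 ^ d := by
      exact_mod_cast e1
    refine le_of_eq_of_le ?_ e3
    simp only [indicator, Pi.one_apply]
    rw [← Finset.sum_filter]
    simp
  calc _ ≤ ∑ ω, ∑ c ∈ Y, ∫⁻ s in B ω ∩ closedBall c (δ / 2), H s * h ω s ∂σ :=
        Finset.sum_le_sum fun ω _ => hcover ω
    _ ≤ ∑ c ∈ Y, μ (closedBall c (2 * δ)) * (3 * (2 ^ (y * q))⁻¹) := by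
        rw [Finset.sum_comm]; exact Finset.sum_le_sum hloc
    _ ≤ _ := by rw [← Finset.sum_mul, ← hμu]; exact mul_le_mul_left hover _

theorem ofReal_rad (t : ℕ) : ENNReal.ofReal (8 * rad t) = 2 ^ 4 * (2 ^ t)⁻¹ := by
  have : 8 * rad t = 2 ^ 4 * (2 ^ t)⁻¹ := by unfold rad; ring
  rw [this, ENNReal.ofReal_mul (by positivity), ENNReal.ofReal_inv_of_pos (by positivity),
    ENNReal.ofReal_pow (by norm_num), ENNReal.ofReal_pow (by norm_num)]
  simp

theorem exists_bad {q a y e N : ℕ} (hq : 2 ≤ q) (hN : e + 28 * q ≤ 3 * q * N)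
    (σ : Measure (Euc d)) [IsFiniteMeasure σ] (hsupp : σ (closedBall 0 1)ᶜ = 0)
    (hcap : ∀ z r, 0 < r → σ (closedBall z r) ≤ ENNReal.ofReal (8 * r) ^ (7 * q))
    {H : Euc d → ℝ≥0∞} (hH : Measurable H) (hH1 : ∀ s, H s ≤ 1)
    {Ω : Type} [Fintype Ω] (hΩ : (Fintype.card Ω : ℝ≥0∞) ≤ 2 ^ (a * q * q))
    (g : Ω → (Fin q → Euc d) × (Fin q → ℝ) → ℝ≥0∞) (hg : ∀ ω, Measurable (g ω))
    (hg1 : ∀ p, ∑ ω, g ω p ≤ 1) (h : Ω → Euc d → ℝ≥0∞)
    (hh : ∀ ω s, h ω s = ∫⁻ X, g ω (X, ev X s) ∂rows d q) (hh1 : ∀ s, ∑ ω, h ω s ≤ 1) :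
    ∃ B : Ω → Set (Euc d), (∀ ω, MeasurableSet (B ω)) ∧
      ∑ ω, ∫⁻ s in B ω, H s * h ω s ∂σ ≤
        (N + 1) * (9 ^ d * (∫⁻ s, H s ∂σ) * (3 * (2 ^ (y * q))⁻¹)) + (2 ^ e)⁻¹ ∧
      ∀ ω s, s ∈ closedBall (0 : Euc d) 1 → s ∉ B ω → pot σ q N H s * h ω s ≤
        (N + 1) * (2 ^ ((a + 3 * y + 12) * q)) ^ 2 * pot σ q N (fun s => H s * h ω s) s := by
  have hhm : ∀ ω, Measurable (h ω) := fun ω => by
    rw [show h ω = _ from funext (hh ω)]; exact measurable_win (hg ω)
  by_cases hbig : ∫⁻ s, H s ∂σ ≤ (2 ^ e)⁻¹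
  · refine ⟨fun _ => univ, fun _ => MeasurableSet.univ, le_add_left (le_trans ?_ hbig),
      fun ω s _ hs => absurd (mem_univ s) hs⟩
    simp only [Measure.restrict_univ]
    rw [← lintegral_finset_sum _ fun ω _ => hH.fun_mul (hhm ω)]
    refine lintegral_mono fun s => ?_
    rw [← Finset.mul_sum]
    exact mul_le_of_le_one_right' (hh1 s)
  set K : ℝ≥0∞ := (2 ^ ((a + 3 * y + 12) * q)) ^ 2 with hK
  set G : ℕ → Set (Euc d) := fun t =>
    {s | ∀ t', 2 ^ (4 * q * t') * mass σ H t' s ≤ 2 ^ (4 * q * t) * mass σ H t s} with hG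
  have hGm : ∀ t, MeasurableSet (G t) := fun t => by
    simp only [hG, setOf_forall]
    exact MeasurableSet.iInter fun t' => measurableSet_le
      ((measurable_mass σ hH t').const_mul _) ((measurable_mass σ hH t).const_mul _)
  set Bt : ℕ → Ω → Set (Euc d) := fun t ω =>
    G t ∩ {s | K * mass σ (fun s => H s * h ω s) t s < h ω s * mass σ H t s} with hBt
  have hBm : ∀ t ω, MeasurableSet (Bt t ω) := fun t ω => (hGm t).inter (measurableSet_lt
    ((measurable_mass σ (hH.fun_mul (hhm ω)) t).const_mul _) ((hhm ω).mul (measurable_mass σ hH t)))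
  refine ⟨fun ω => ⋃ t ∈ Finset.range (N + 1), Bt t ω,
    fun ω => Finset.measurableSet_biUnion _ fun t _ => hBm t ω, le_add_right ?_, ?_⟩
  · calc _ ≤ ∑ ω, ∑ t ∈ Finset.range (N + 1), ∫⁻ s in Bt t ω, H s * h ω s ∂σ :=
          Finset.sum_le_sum fun ω _ => by
            have := measure_biUnion_finset_le (μ := σ.withDensity fun s => H s * h ω s)
              (Finset.range (N + 1)) fun t => Bt t ω
            rw [withDensity_apply _ (Finset.measurableSet_biUnion _ fun t _ => hBm t ω)] at this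
            refine this.trans (le_of_eq (Finset.sum_congr rfl fun t _ => ?_))
            exact withDensity_apply _ (hBm t ω)
      _ ≤ ∑ _t ∈ Finset.range (N + 1), 9 ^ d * (∫⁻ s, H s ∂σ) * (3 * (2 ^ (y * q))⁻¹) := by
          rw [Finset.sum_comm]
          exact Finset.sum_le_sum fun t _ => bad_scale (a := a) (y := y) hq σ hsupp hH hH1 hΩ g hg
            hg1 h hh t (G t) (hGm t) (fun s hs => hs) (Bt t) (hBm t)
            (fun ω => inter_subset_left) fun ω s hs => hs.2
      _ = _ := by simp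
  · intro ω s hs hsB
    obtain ⟨t, ht, hmax⟩ := Finset.exists_max_image (Finset.range (N + 1))
      (fun t => 2 ^ (4 * q * t) * mass σ H t s) ⟨0, by simp⟩
    have hsG : s ∈ G t := by
      intro t'
      by_cases ht' : t' ∈ Finset.range (N + 1)
      · exact hmax t' ht'
      refine le_trans ?_ (hmax 0 (by simp))
      have e0 : mass σ H 0 s = ∫⁻ s, H s ∂σ := by
        rw [mass, Measure.restrict_eq_self_of_ae_mem]
        filter_upwards [show ∀ᵐ s ∂σ, s ∈ closedBall 0 1 from hsupp] with s' hs'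
        refine closedBall_subset_closedBall' ?_ hs'
        rw [mem_closedBall, dist_comm] at hs
        simp only [rad]; linarith
      have e1 : mass σ H t' s ≤ (2 ^ 4 * (2 ^ t')⁻¹) ^ (7 * q) := by
        rw [← ofReal_rad]
        refine le_trans ?_ (hcap s _ (rad_pos t'))
        rw [← setLIntegral_one]
        exact lintegral_mono hH1
      simp only [mul_zero, pow_zero, one_mul, e0]
      refine le_trans ?_ (not_le.1 hbig).le
      refine (mul_le_mul_right e1 _).trans ?_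
      rw [mul_pow, ← ENNReal.inv_pow, ← pow_mul, ← pow_mul, ← mul_assoc, ← pow_add, mul_comm]
      refine two_pow_inv_mul ?_
      have : N + 1 ≤ t' := by simpa using ht'
      nlinarith
    have hnb : h ω s * mass σ H t s ≤ K * mass σ (fun s => H s * h ω s) t s := by
      by_contra hcon
      exact hsB (mem_iUnion₂.2 ⟨t, ht, hsG, not_le.1 hcon⟩)
    calc pot σ q N H s * h ω s
        ≤ ((N + 1) * (2 ^ (4 * q * t) * mass σ H t s)) * h ω s := by
          refine mul_le_mul_left ((Finset.sum_le_sum fun t' ht' => hmax t' ht').trans ?_) _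
          simp
      _ = (N + 1) * (2 ^ (4 * q * t) * (h ω s * mass σ H t s)) := by ring
      _ ≤ (N + 1) * (2 ^ (4 * q * t) * (K * mass σ (fun s => H s * h ω s) t s)) := by gcongr
      _ = (N + 1) * K * (2 ^ (4 * q * t) * mass σ (fun s => H s * h ω s) t s) := by ring
      _ ≤ _ := mul_le_mul_right (Finset.single_le_sum
          (f := fun t => 2 ^ (4 * q * t) * mass σ (fun s => H s * h ω s) t s)
          (fun _ _ => zero_le) ht) _

theorem step {q a y e N : ℕ} (hq : 2 ≤ q) (hN : e + 28 * q ≤ 3 * q * N)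
    (σ : Measure (Euc d)) [IsProbabilityMeasure σ] (hsupp : σ (closedBall 0 1)ᶜ = 0)
    (hcap : ∀ z r, 0 < r → σ (closedBall z r) ≤ ENNReal.ofReal (8 * r) ^ (7 * q))
    {Ω : Type} [Fintype Ω] (hΩ : (Fintype.card Ω : ℝ≥0∞) ≤ 2 ^ (a * q * q))
    (H : Ω → Euc d → ℝ≥0∞) (hH : ∀ ω, Measurable (H ω)) (hH1 : ∀ s, ∑ ω, H ω s ≤ 1)
    (g : Ω → Ω → (Fin q → Euc d) × (Fin q → ℝ) → ℝ≥0∞) (hg : ∀ ω ω', Measurable (g ω ω'))
    (hg1 : ∀ ω p, ∑ ω', g ω ω' p ≤ 1) (H' : Ω → Euc d → ℝ≥0∞)
    (hH' : ∀ ω' s, H' ω' s = ∑ ω, H ω s * ∫⁻ X, g ω ω' (X, ev X s) ∂rows d q) (κ : ℝ≥0∞) :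
    ∑ ω, ∫⁻ s, (H' ω s - κ * ((N + 1) * (2 ^ ((a + 3 * y + 12) * q)) ^ 2) * pot σ q N (H' ω) s) ∂σ
      ≤ ∑ ω, ∫⁻ s, (H ω s - κ * pot σ q N (H ω) s) ∂σ +
        ((N + 1) * (9 ^ d * (3 * (2 ^ (y * q))⁻¹)) + Fintype.card Ω * (2 ^ e)⁻¹) := by
  set h : Ω → Ω → Euc d → ℝ≥0∞ := fun ω ω' s => ∫⁻ X, g ω ω' (X, ev X s) ∂rows d q with hh
  have hhm : ∀ ω ω', Measurable (h ω ω') := fun ω ω' => measurable_win (hg ω ω')
  have hh1 : ∀ ω s, ∑ ω', h ω ω' s ≤ 1 := fun ω s => by
    simp only [hh]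
    rw [← lintegral_finset_sum _ fun ω' _ => by
      exact (hg ω ω').comp (measurable_ev.comp measurable_prodMk_left)]
    calc _ ≤ ∫⁻ _X, 1 ∂rows d q := lintegral_mono fun X => hg1 ω _
      _ = 1 := by simp
  have hle : ∀ ω s, H ω s ≤ 1 := fun ω s =>
    (Finset.single_le_sum (f := fun ω => H ω s) (fun _ _ => zero_le) (Finset.mem_univ ω)).trans
      (hH1 s)
  have := fun ω => exists_bad (a := a) (y := y) hq hN σ hsupp hcap (hH ω) (hle ω) hΩ (g ω) (hg ω)
    (hg1 ω) (h ω) (fun _ _ => rfl) (hh1 ω)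
  choose B hBm hB1 hB2 using this
  set K : ℝ≥0∞ := (N + 1) * (2 ^ ((a + 3 * y + 12) * q)) ^ 2 with hK
  set X : Ω → Euc d → ℝ≥0∞ := fun ω s => H ω s - κ * pot σ q N (H ω) s with hX
  have hXm : ∀ ω, Measurable (X ω) := fun ω =>
    (hH ω).sub ((measurable_pot σ q N (hH ω)).const_mul _)
  have hpt : ∀ ω' s, s ∈ closedBall (0 : Euc d) 1 → H' ω' s - κ * K * pot σ q N (H' ω') s ≤
      ∑ ω, (X ω s * h ω ω' s + (B ω ω').indicator (fun s => H ω s * h ω ω' s) s) := by
    intro ω' s hs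
    have e1 : H' ω' = fun s => ∑ ω, H ω s * h ω ω' s := funext (hH' ω')
    rw [tsub_le_iff_right, e1, pot_sum σ q N _ fun ω => (hH ω).fun_mul (hhm ω ω'), Finset.mul_sum,
      ← Finset.sum_add_distrib]
    refine Finset.sum_le_sum fun ω _ => ?_
    by_cases hb : s ∈ B ω ω'
    · rw [indicator_of_mem hb]; exact le_add_right le_add_self
    · calc H ω s * h ω ω' s ≤ (X ω s + κ * pot σ q N (H ω) s) * h ω ω' s :=
            mul_le_mul_left le_tsub_add _
        _ = X ω s * h ω ω' s + κ * (pot σ q N (H ω) s * h ω ω' s) := by ring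
        _ ≤ _ := by
            rw [mul_assoc κ]
            exact add_le_add le_self_add (mul_le_mul_right (hB2 ω ω' s hs hb) _)
  calc _ ≤ ∑ ω', ∫⁻ s, ∑ ω, (X ω s * h ω ω' s +
          (B ω ω').indicator (fun s => H ω s * h ω ω' s) s) ∂σ := by
        refine Finset.sum_le_sum fun ω' _ => lintegral_mono_ae ?_
        filter_upwards [show ∀ᵐ s ∂σ, s ∈ closedBall 0 1 from hsupp] with s hs using hpt ω' s hs
    _ = ∑ ω, (∑ ω', ∫⁻ s, X ω s * h ω ω' s ∂σ + ∑ ω', ∫⁻ s in B ω ω', H ω s * h ω ω' s ∂σ) := by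
        simp_rw [← Finset.sum_add_distrib]
        rw [Finset.sum_comm]
        refine Finset.sum_congr rfl fun ω' _ => ?_
        rw [lintegral_finset_sum _ fun ω _ => ((hXm ω).fun_mul (hhm ω ω')).fun_add
          (((hH ω).fun_mul (hhm ω ω')).indicator (hBm ω ω'))]
        refine Finset.sum_congr rfl fun ω _ => ?_
        rw [lintegral_add_left ((hXm ω).fun_mul (hhm ω ω')), lintegral_indicator (hBm ω ω')]
    _ ≤ ∑ ω, (∫⁻ s, X ω s ∂σ +
          ((N + 1) * (9 ^ d * (∫⁻ s, H ω s ∂σ) * (3 * (2 ^ (y * q))⁻¹)) + (2 ^ e)⁻¹)) := by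
        refine Finset.sum_le_sum fun ω _ => add_le_add ?_ (hB1 ω)
        rw [← lintegral_finset_sum _ fun ω' _ => (hXm ω).fun_mul (hhm ω ω')]
        refine lintegral_mono fun s => ?_
        rw [← Finset.mul_sum]
        exact mul_le_of_le_one_right' (hh1 ω s)
    _ ≤ _ := by
        rw [Finset.sum_add_distrib, Finset.sum_add_distrib, Finset.sum_const, nsmul_eq_mul,
          Finset.card_univ, ← Finset.mul_sum, ← Finset.sum_mul, ← Finset.mul_sum,
          ← lintegral_finset_sum _ fun ω _ => hH ω]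
        have : ∫⁻ s, ∑ ω, H ω s ∂σ ≤ 1 := (lintegral_mono hH1).trans (by simp)
        gcongr
        exact mul_le_of_le_one_right' this

end Vale.Agent.P309
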